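import Vale.Agent.P331.Final

/-!
# The explicit constant (P331)
-/

open MeasureTheory
open scoped ENNReal NNReal
open Finset

set_option linter.unusedSectionVars false
set_option linter.unusedSimpArgs false
set_option linter.unusedVariables false

namespace Vale.Agent.P331

lemma harmonic_piece (K0 : ℕ) (hK0 : 1 ≤ K0) (m : ℕ) (hm : K0 ≤ m) :
    ∑ k ∈ Finset.Icc K0 m, (1 / (k : ℝ)) ≤ 1 / (K0 : ℝ) + Real.log ((m : ℝ) / K0) := by
  induction m, hm using Nat.le_induction with
  | base =>
    have hK : (0 : ℝ) < K0 := by exact_mod_cast hK0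
    simp [div_self hK.ne']
  | succ m hm ih =>
    have hmpos : (0 : ℝ) < m := by
      have : 1 ≤ m := by omega
      exact_mod_cast this
    have hK : (0 : ℝ) < K0 := by exact_mod_cast hK0
    have hIcc : Finset.Icc K0 (m + 1) = insert (m + 1) (Finset.Icc K0 m) := by
      ext x
      simp only [Finset.mem_Icc, Finset.mem_insert]
      omega
    rw [hIcc, Finset.sum_insert (by simp)]
    have hlog : Real.log (((m + 1 : ℕ) : ℝ) / K0)
        = Real.log ((m : ℝ) / K0) + Real.log (((m : ℝ) + 1) / m) := by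
      push_cast
      rw [← Real.log_mul (by positivity) (by positivity)]
      congr 1
      field_simp
    have hstep : 1 / ((m + 1 : ℕ) : ℝ) ≤ Real.log (((m : ℝ) + 1) / m) := by
      have h := Real.one_sub_inv_le_log_of_pos (x := ((m : ℝ) + 1) / m) (by positivity)
      have h2 : 1 - (((m : ℝ) + 1) / m)⁻¹ = 1 / ((m : ℝ) + 1) := by
        field_simp
        ring
      rw [h2] at h
      simpa using h
    rw [hlog]
    linarith

/-- bound on the total harmonic weight. -/
lemma seedTot_le {g r : ℕ} (hg2 : 2 ≤ g) (hgr : g ≤ r + 1) :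
    seedTot (max 1 (g / 4)) r ≤ ENNReal.ofReal (3 + Real.log ((r : ℝ) / g)) := by
  set K0 := max 1 (g / 4) with hK0def
  have hK0 : 1 ≤ K0 := le_max_left _ _
  have hg8 : g ≤ 8 * K0 := by
    rcases le_total 1 (g / 4) with h | h
    · rw [hK0def, max_eq_right h]
      omega
    · rw [hK0def, max_eq_left h]
      omega
  have hr1 : 1 ≤ r := by omega
  have hrpos : (0 : ℝ) < r := by exact_mod_cast hr1
  have hgpos : (0 : ℝ) < g := by
    have : 1 ≤ g := by omega
    exact_mod_cast this
  have hKpos : (0 : ℝ) < K0 := by exact_mod_cast hK0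
  have hlog2 : Real.log 2 < 1 := by
    have := Real.log_two_lt_d9
    linarith
  have hlog2pos : 0 < Real.log 2 := Real.log_pos (by norm_num)
  -- the real bound
  have hreal : 1 + ∑ k ∈ Finset.Icc K0 (r / 4), (1 / (k : ℝ)) ≤ 3 + Real.log ((r : ℝ) / g) := by
    by_cases hm : K0 ≤ r / 4
    · have h1 := harmonic_piece K0 hK0 (r / 4) hm
      have hmpos : (0 : ℝ) < ((r / 4 : ℕ) : ℝ) := by
        have : 1 ≤ r / 4 := by omega
        exact_mod_cast this
      have hmle : ((r / 4 : ℕ) : ℝ) ≤ (r : ℝ) / 4 := by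
        have := Nat.cast_div_le (α := ℝ) (m := r) (n := 4)
        simpa using this
      have hK8 : (g : ℝ) ≤ 8 * K0 := by exact_mod_cast hg8
      have h2 : ((r / 4 : ℕ) : ℝ) / K0 ≤ 2 * ((r : ℝ) / g) := by
        rw [div_le_iff₀ hKpos]
        have h3 : 2 * ((r : ℝ) / g) * K0 = (r : ℝ) * (2 * K0 / g) := by
          field_simp
        rw [h3]
        have h4 : (1 : ℝ) / 4 ≤ 2 * K0 / g := by
          rw [div_le_div_iff₀ (by norm_num) hgpos]
          linarith
        calc ((r / 4 : ℕ) : ℝ) ≤ (r : ℝ) * (1 / 4) := by linarith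
          _ ≤ _ := by gcongr
      have h5 : Real.log (((r / 4 : ℕ) : ℝ) / K0) ≤ Real.log 2 + Real.log ((r : ℝ) / g) := by
        rw [← Real.log_mul (by norm_num) (by positivity)]
        exact Real.log_le_log (by positivity) h2
      have h6 : 1 / (K0 : ℝ) ≤ 1 := by
        rw [div_le_one hKpos]
        exact_mod_cast hK0
      linarith
    · have hempty : Finset.Icc K0 (r / 4) = ∅ := Finset.Icc_eq_empty (by omega)
      rw [hempty]
      simp only [Finset.sum_empty, add_zero]
      have hhalf : (1 : ℝ) / 2 ≤ (r : ℝ) / g := by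
        rw [div_le_div_iff₀ (by norm_num) hgpos]
        have h7 : (g : ℝ) ≤ r + 1 := by exact_mod_cast hgr
        have h8 : (1 : ℝ) ≤ r := by exact_mod_cast hr1
        linarith
      have h9 : Real.log (1 / 2) ≤ Real.log ((r : ℝ) / g) :=
        Real.log_le_log (by norm_num) hhalf
      have h10 : Real.log (1 / 2) = - Real.log 2 := by
        rw [one_div, Real.log_inv]
      linarith
  unfold seedTot seedSet
  rw [Finset.sum_insert (by simp; omega)]
  have hW : ∀ k ∈ Finset.Icc K0 (r / 4), seedW k = ENNReal.ofReal (1 / (k : ℝ)) := by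
    intro k hk
    have hk1 : 1 ≤ k := by
      have := (Finset.mem_Icc.mp hk).1
      omega
    have hk0 : k ≠ 0 := by omega
    have hkpos : (0 : ℝ) < k := by exact_mod_cast hk1
    simp only [seedW, if_neg hk0]
    rw [one_div, ENNReal.ofReal_inv_of_pos hkpos, ENNReal.ofReal_natCast]
  rw [Finset.sum_congr rfl hW, ← ENNReal.ofReal_sum_of_nonneg (fun k _ => by positivity)]
  have h1 : seedW 0 = ENNReal.ofReal 1 := by simp [seedW]
  rw [h1, ← ENNReal.ofReal_add (by norm_num) (Finset.sum_nonneg fun k _ => by positivity)]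
  exact ENNReal.ofReal_le_ofReal hreal

/-- the explicit constant. -/
lemma const_le {g r : ℕ} (hg2 : 2 ≤ g) (hgr : g ≤ r + 1) :
    ENNReal.ofReal (1 / (16 * (3 + Real.log ((r : ℝ) / g))))
      ≤ (seedTot (max 1 (g / 4)) r)⁻¹ * (16 : ℝ≥0∞)⁻¹ := by
  have hT := seedTot_le hg2 hgr
  have hr1 : 1 ≤ r := by omega
  have hrpos : (0 : ℝ) < r := by exact_mod_cast hr1
  have hgpos : (0 : ℝ) < g := by
    have : 1 ≤ g := by omega
    exact_mod_cast this
  have hlog2 : Real.log 2 < 1 := by
    have := Real.log_two_lt_d9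
    linarith
  have hXpos : 0 < 3 + Real.log ((r : ℝ) / g) := by
    have hhalf : (1 : ℝ) / 2 ≤ (r : ℝ) / g := by
      rw [div_le_div_iff₀ (by norm_num) hgpos]
      have h7 : (g : ℝ) ≤ r + 1 := by exact_mod_cast hgr
      have h8 : (1 : ℝ) ≤ r := by exact_mod_cast hr1
      linarith
    have h9 : Real.log (1 / 2) ≤ Real.log ((r : ℝ) / g) :=
      Real.log_le_log (by norm_num) hhalf
    have h10 : Real.log (1 / 2) = - Real.log 2 := by
      rw [one_div, Real.log_inv]
    linarith
  set X := 3 + Real.log ((r : ℝ) / g) with hX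
  have h1 : ENNReal.ofReal (1 / (16 * X)) = (ENNReal.ofReal X)⁻¹ * (16 : ℝ≥0∞)⁻¹ := by
    have : (1 : ℝ) / (16 * X) = X⁻¹ * (16 : ℝ)⁻¹ := by
      field_simp
    rw [this, ENNReal.ofReal_mul (by positivity), ENNReal.ofReal_inv_of_pos hXpos,
      ENNReal.ofReal_inv_of_pos (by norm_num)]
    norm_num
  rw [h1]
  gcongr

end Vale.Agent.P331
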