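import Mathlib

/-!
# Finite combinatorics for the one-sample threshold rule (P331)
-/

open scoped ENNReal
open Finset

set_option linter.unusedSectionVars false
set_option linter.unusedSimpArgs false
set_option linter.unusedVariables false

namespace Vale.Agent.P331

variable {E : Type} [Fintype E] [DecidableEq E]

section Rank

open Classical

/-- finite rank: the largest independent subset of `X`. -/
noncomputable def rkF (M : Matroid E) (X : Finset E) : ℕ :=
  (X.powerset.filter (fun I : Finset E => M.Indep (I : Set E))).sup Finset.card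

lemma le_rkF (M : Matroid E) {X I : Finset E} (hIX : I ⊆ X) (hI : M.Indep (I : Set E)) :
    I.card ≤ rkF M X := by
  unfold rkF
  exact Finset.le_sup (f := Finset.card) (by simp [hIX, hI])

lemma exists_of_rkF (M : Matroid E) (X : Finset E) :
    ∃ I, I ⊆ X ∧ M.Indep (I : Set E) ∧ I.card = rkF M X := by
  have hne : (X.powerset.filter (fun I : Finset E => M.Indep (I : Set E))).Nonempty :=
    ⟨∅, by simp [M.empty_indep]⟩
  obtain ⟨I, hI, hIe⟩ := Finset.exists_mem_eq_sup _ hne Finset.card
  simp only [mem_filter, mem_powerset] at hI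
  exact ⟨I, hI.1, hI.2, by unfold rkF; exact hIe.symm⟩

lemma rkF_mono (M : Matroid E) {X Y : Finset E} (h : X ⊆ Y) : rkF M X ≤ rkF M Y := by
  obtain ⟨I, hIX, hI, hc⟩ := exists_of_rkF M X
  rw [← hc]
  exact le_rkF M (hIX.trans h) hI

/-- maximal independent subsets of `P`. -/
noncomputable def maxIndep (M : Matroid E) (P : Finset E) : Finset (Finset E) :=
  P.powerset.filter (fun A : Finset E => M.Indep (A : Set E) ∧
    ∀ e ∈ P, e ∉ A → ¬ M.Indep ((insert e A : Finset E) : Set E))

lemma card_of_mem_maxIndep (M : Matroid E) {P A : Finset E} (hA : A ∈ maxIndep M P) :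
    A.card = rkF M P := by
  simp only [maxIndep, mem_filter, mem_powerset] at hA
  obtain ⟨hAP, hAi, hmax⟩ := hA
  refine le_antisymm (le_rkF M hAP hAi) ?_
  obtain ⟨I, hIP, hI, hc⟩ := exists_of_rkF M P
  by_contra hlt
  push Not at hlt
  rw [← hc] at hlt
  have hlt' : (A : Set E).encard < (I : Set E).encard := by
    simpa [Set.encard_coe_eq_coe_finsetCard] using hlt
  obtain ⟨e, he, hins⟩ := hAi.augment hI hlt'
  have heI : e ∈ I := by simpa using he.1
  have heA : e ∉ A := by simpa using he.2
  apply hmax e (hIP heI) heA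
  simpa using hins

/-- the worst value of a maximal independent subset of `P` under the weights `v`. -/
noncomputable def worst (M : Matroid E) (P : Finset E) (v : E → ℝ≥0∞) : ℝ≥0∞ :=
  (maxIndep M P).inf (fun A => ∑ e ∈ A, v e)

lemma worst_le (M : Matroid E) {P A : Finset E} (v : E → ℝ≥0∞) (hA : A ∈ maxIndep M P) :
    worst M P v ≤ ∑ e ∈ A, v e :=
  Finset.inf_le hA

lemma count_le_worst (M : Matroid E) {P : Finset E} {v : E → ℝ≥0∞} {u : ℝ≥0∞} {k : ℕ}
    (hk : k ≤ rkF M P) (hu : ∀ e ∈ P, u ≤ v e) : (k : ℝ≥0∞) * u ≤ worst M P v := by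
  unfold worst
  refine Finset.le_inf fun A hA => ?_
  have hc := card_of_mem_maxIndep M hA
  have hAP : A ⊆ P := by
    simp only [maxIndep, mem_filter, mem_powerset] at hA
    exact hA.1
  calc (k : ℝ≥0∞) * u ≤ (A.card : ℝ≥0∞) * u := by
        gcongr
        omega
    _ = ∑ _e ∈ A, u := by simp [Finset.sum_const, nsmul_eq_mul]
    _ ≤ ∑ e ∈ A, v e := Finset.sum_le_sum fun e he => hu e (hAP he)

lemma sum_le_worst_of_indep (M : Matroid E) {P : Finset E} {v : E → ℝ≥0∞}
    (hP : M.Indep (P : Set E)) : ∑ e ∈ P, v e ≤ worst M P v := by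
  unfold worst
  refine Finset.le_inf fun A hA => ?_
  simp only [maxIndep, mem_filter, mem_powerset] at hA
  obtain ⟨hAP, _, hmax⟩ := hA
  have : A = P := by
    refine Finset.Subset.antisymm hAP fun e he => ?_
    by_contra heA
    apply hmax e he heA
    refine hP.subset ?_
    intro x hx
    simp only [coe_insert, Set.mem_insert_iff, mem_coe] at hx
    rcases hx with rfl | hx
    · exact_mod_cast he
    · exact_mod_cast hAP hx
  rw [this]

end Rank

section Cheb

/-- the sign of a coin. -/
def eps (b : E → Bool) (e : E) : ℤ := if b e then 1 else -1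

lemma eps_sq (b : E → Bool) (e : E) : eps b e * eps b e = 1 := by
  unfold eps; split_ifs <;> norm_num

/-- flip the coin at `e`. -/
def flipAt (e : E) (b : E → Bool) : E → Bool := Function.update b e (!b e)

lemma flipAt_flipAt (e : E) (b : E → Bool) : flipAt e (flipAt e b) = b := by
  funext x
  by_cases hx : x = e
  · subst hx; simp [flipAt]
  · simp [flipAt, Function.update_of_ne hx]

/-- the flip as a permutation. -/
def flipEquiv (e : E) : Equiv.Perm (E → Bool) :=
  ⟨flipAt e, flipAt e, flipAt_flipAt e, flipAt_flipAt e⟩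

lemma eps_flip_same (e : E) (b : E → Bool) : eps (flipAt e b) e = - eps b e := by
  unfold eps flipAt
  cases h : b e <;> simp [h]

lemma eps_flip_ne {e f : E} (h : f ≠ e) (b : E → Bool) : eps (flipAt e b) f = eps b f := by
  unfold eps flipAt
  simp [Function.update_of_ne h]

lemma sum_eps (e : E) : ∑ b : E → Bool, eps b e = 0 := by
  have h : ∑ b : E → Bool, eps b e = ∑ b : E → Bool, eps (flipEquiv e b) e :=
    (Equiv.sum_comp (flipEquiv e) (fun b => eps b e)).symm
  have h2 : ∑ b : E → Bool, eps (flipEquiv e b) e = - ∑ b : E → Bool, eps b e := by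
    rw [← Finset.sum_neg_distrib]
    exact Finset.sum_congr rfl fun b _ => eps_flip_same e b
  omega

lemma sum_eps_mul {e f : E} (hef : e ≠ f) : ∑ b : E → Bool, eps b e * eps b f = 0 := by
  have h : ∑ b : E → Bool, eps b e * eps b f
      = ∑ b : E → Bool, eps (flipEquiv e b) e * eps (flipEquiv e b) f :=
    (Equiv.sum_comp (flipEquiv e) (fun b => eps b e * eps b f)).symm
  have h2 : ∑ b : E → Bool, eps (flipEquiv e b) e * eps (flipEquiv e b) f
      = - ∑ b : E → Bool, eps b e * eps b f := by
    rw [← Finset.sum_neg_distrib]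
    refine Finset.sum_congr rfl fun b _ => ?_
    show eps (flipAt e b) e * eps (flipAt e b) f = _
    rw [eps_flip_same, eps_flip_ne (Ne.symm hef)]
    ring
  omega

lemma card_cube : (Finset.univ : Finset (E → Bool)).card = 2 ^ Fintype.card E := by
  simp

/-- the second moment of a sum of fair signs -/
lemma sum_sq_eps (Z : Finset E) :
    ∑ b : E → Bool, (∑ e ∈ Z, eps b e) ^ 2 = 2 ^ Fintype.card E * (Z.card : ℤ) := by
  have h1 : ∀ b : E → Bool, (∑ e ∈ Z, eps b e) ^ 2
      = ∑ e ∈ Z, ∑ f ∈ Z, eps b e * eps b f := by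
    intro b
    rw [sq, Finset.sum_mul_sum]
  simp_rw [h1]
  rw [Finset.sum_comm]
  have h2 : ∀ e ∈ Z, ∑ b : E → Bool, ∑ f ∈ Z, eps b e * eps b f = 2 ^ Fintype.card E := by
    intro e he
    rw [Finset.sum_comm]
    rw [← Finset.add_sum_erase Z _ he]
    have h3 : ∑ f ∈ Z.erase e, ∑ b : E → Bool, eps b e * eps b f = 0 := by
      refine Finset.sum_eq_zero fun f hf => ?_
      exact sum_eps_mul (Ne.symm (Finset.ne_of_mem_erase hf))
    rw [h3]
    simp [eps_sq]
  rw [Finset.sum_congr rfl h2]
  simp [mul_comm]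

/-- number of `true` coins in `Z`. -/
def trueCount (Z : Finset E) (b : E → Bool) : ℕ := (Z.filter (fun e => b e = true)).card

lemma sum_eps_eq (Z : Finset E) (b : E → Bool) :
    ∑ e ∈ Z, eps b e = 2 * (trueCount Z b : ℤ) - Z.card := by
  classical
  induction Z using Finset.induction_on with
  | empty => simp [trueCount]
  | insert a s ha ih =>
    rw [Finset.sum_insert ha, ih, Finset.card_insert_of_notMem ha]
    unfold trueCount eps
    by_cases hb : b a = true
    · have hf : (insert a s).filter (fun e => b e = true)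
          = insert a (s.filter (fun e => b e = true)) := by
        rw [Finset.filter_insert, if_pos hb]
      rw [hf, Finset.card_insert_of_notMem (by simp [ha])]
      simp only [hb, if_true]
      push_cast
      ring
    · have hf : (insert a s).filter (fun e => b e = true)
          = s.filter (fun e => b e = true) := by
        rw [Finset.filter_insert, if_neg hb]
      rw [hf]
      simp only [hb, if_false]
      push_cast
      ring

/-- Chebyshev for fair coins -/
lemma cheb (Z : Finset E) (d : ℕ) :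
    ((Finset.univ.filter (fun b : E → Bool =>
        ((d : ℤ) ^ 2 ≤ (2 * (trueCount Z b : ℤ) - Z.card) ^ 2))).card : ℤ) * (d : ℤ) ^ 2
      ≤ 2 ^ Fintype.card E * (Z.card : ℤ) := by
  rw [← sum_sq_eps Z]
  have h : ∀ b : E → Bool, (∑ e ∈ Z, eps b e) ^ 2 = (2 * (trueCount Z b : ℤ) - Z.card) ^ 2 := by
    intro b; rw [sum_eps_eq]
  simp_rw [h]
  calc _ = ∑ _b ∈ (Finset.univ.filter (fun b : E → Bool =>
        ((d : ℤ) ^ 2 ≤ (2 * (trueCount Z b : ℤ) - Z.card) ^ 2))), (d : ℤ) ^ 2 := by
        simp [Finset.sum_const, nsmul_eq_mul]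
    _ ≤ ∑ b ∈ (Finset.univ.filter (fun b : E → Bool =>
        ((d : ℤ) ^ 2 ≤ (2 * (trueCount Z b : ℤ) - Z.card) ^ 2))),
          (2 * (trueCount Z b : ℤ) - Z.card) ^ 2 := by
        refine Finset.sum_le_sum fun b hb => ?_
        simpa using (Finset.mem_filter.mp hb).2
    _ ≤ _ := by
        refine Finset.sum_le_sum_of_subset_of_nonneg (Finset.filter_subset _ _) ?_
        intros; positivity

/-- `4 #{b : Y < k or Y > 3 k} ≤ 2^n` for `|Z| = 4 k`, `k ≥ 1`. -/
lemma level_bad_card (Z : Finset E) (k : ℕ) (hk : 1 ≤ k) (hZ : Z.card = 4 * k) :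
    4 * (Finset.univ.filter (fun b : E → Bool =>
        trueCount Z b < k ∨ 3 * k < trueCount Z b)).card ≤ 2 ^ Fintype.card E := by
  have h := cheb Z (2 * k + 2)
  set A := (Finset.univ.filter (fun b : E → Bool =>
        trueCount Z b < k ∨ 3 * k < trueCount Z b)) with hA
  have hsub : A ⊆ (Finset.univ.filter (fun b : E → Bool =>
        (((2 * k + 2 : ℕ) : ℤ) ^ 2 ≤ (2 * (trueCount Z b : ℤ) - Z.card) ^ 2))) := by
    intro b hb
    simp only [hA, mem_filter, mem_univ, true_and] at hb ⊢
    rw [hZ]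
    push_cast
    rcases hb with hb | hb
    · have h1 : (trueCount Z b : ℤ) + 1 ≤ k := by exact_mod_cast hb
      nlinarith
    · have h1 : 3 * (k : ℤ) + 1 ≤ trueCount Z b := by exact_mod_cast hb
      nlinarith
  have hc : (A.card : ℤ) * (((2 * k + 2 : ℕ) : ℤ) ^ 2)
      ≤ 2 ^ Fintype.card E * (Z.card : ℤ) := by
    refine le_trans ?_ h
    gcongr
  rw [hZ] at hc
  push_cast at hc
  have hk' : (1 : ℤ) ≤ k := by exact_mod_cast hk
  have hpos : (0 : ℤ) < k := by linarith
  have hA0 : (0 : ℤ) ≤ A.card := by positivity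
  have key : (4 * (A.card : ℤ)) * (4 * k) ≤ 2 ^ Fintype.card E * (4 * k) := by
    have h16 : 16 * (k : ℤ) ≤ (2 * k + 2) ^ 2 := by nlinarith [sq_nonneg ((k : ℤ) - 1)]
    calc (4 * (A.card : ℤ)) * (4 * k) = (A.card : ℤ) * (16 * k) := by ring
      _ ≤ (A.card : ℤ) * (2 * k + 2) ^ 2 := by gcongr
      _ ≤ _ := hc
  have key2 : 4 * (A.card : ℤ) ≤ 2 ^ Fintype.card E :=
    le_of_mul_le_mul_right key (by positivity)
  exact_mod_cast key2

/-- `4 #{b : number of false coins in W < K0} ≤ 2^n` for `|W| ≥ 4 K0`. -/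
lemma top_bad_card (W : Finset E) (K0 : ℕ) (hK0 : 1 ≤ K0) (hW : 4 * K0 ≤ W.card) :
    4 * (Finset.univ.filter (fun b : E → Bool =>
        (W.filter (fun e => b e = false)).card < K0)).card ≤ 2 ^ Fintype.card E := by
  set g := W.card with hg
  have hg0 : 1 ≤ g := by omega
  have h := cheb W (g - 2 * K0 + 2)
  set A := (Finset.univ.filter (fun b : E → Bool =>
        (W.filter (fun e => b e = false)).card < K0)) with hA
  have hsplit : ∀ b : E → Bool,
      (W.filter (fun e => b e = false)).card + trueCount W b = g := by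
    intro b
    unfold trueCount
    rw [hg, add_comm]
    have := Finset.card_filter_add_card_filter_not (s := W) (fun e => b e = true)
    simpa using this
  have hd : ((g - 2 * K0 + 2 : ℕ) : ℤ) = (g : ℤ) - 2 * K0 + 2 := by
    have : 2 * K0 ≤ g := by omega
    push_cast [Nat.cast_sub this]
    ring
  have hsub : A ⊆ (Finset.univ.filter (fun b : E → Bool =>
        (((g - 2 * K0 + 2 : ℕ) : ℤ) ^ 2 ≤ (2 * (trueCount W b : ℤ) - g) ^ 2))) := by
    intro b hb
    simp only [hA, mem_filter, mem_univ, true_and] at hb ⊢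
    have hs := hsplit b
    have h1 : ((W.filter (fun e => b e = false)).card : ℤ) + trueCount W b = g := by
      exact_mod_cast hs
    have h2 : ((W.filter (fun e => b e = false)).card : ℤ) + 1 ≤ K0 := by exact_mod_cast hb
    rw [hd]
    have h3 : (g : ℤ) - 2 * K0 + 2 ≤ 2 * (trueCount W b : ℤ) - g := by linarith
    have h4 : (0 : ℤ) ≤ (g : ℤ) - 2 * K0 + 2 := by
      have : (4 * K0 : ℤ) ≤ g := by exact_mod_cast hW
      have : (1 : ℤ) ≤ K0 := by exact_mod_cast hK0
      linarith
    nlinarith
  have hc : (A.card : ℤ) * (((g - 2 * K0 + 2 : ℕ) : ℤ) ^ 2)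
      ≤ 2 ^ Fintype.card E * (g : ℤ) := by
    refine le_trans ?_ h
    gcongr
  rw [hd] at hc
  have hg' : (4 * K0 : ℤ) ≤ g := by exact_mod_cast hW
  have hK' : (1 : ℤ) ≤ K0 := by exact_mod_cast hK0
  have hgpos : (0 : ℤ) < g := by linarith
  have hA0 : (0 : ℤ) ≤ A.card := by positivity
  have key : (4 * (A.card : ℤ)) * g ≤ 2 ^ Fintype.card E * g := by
    have h16 : 4 * (g : ℤ) ≤ ((g : ℤ) - 2 * K0 + 2) ^ 2 := by
      have hh : (g : ℤ) / 1 = g := by simp
      have h5 : 2 * ((g : ℤ) - 2 * K0 + 2) ≥ g + 4 := by linarith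
      have h6 : (g : ℤ) + 4 ≥ 0 := by linarith
      have h7 : (0 : ℤ) ≤ (g : ℤ) - 2 * K0 + 2 := by linarith
      nlinarith [sq_nonneg ((g : ℤ) - 4)]
    calc (4 * (A.card : ℤ)) * g = (A.card : ℤ) * (4 * g) := by ring
      _ ≤ (A.card : ℤ) * ((g : ℤ) - 2 * K0 + 2) ^ 2 := by gcongr
      _ ≤ _ := hc
  have key2 : 4 * (A.card : ℤ) ≤ 2 ^ Fintype.card E :=
    le_of_mul_le_mul_right key hgpos
  exact_mod_cast key2

/-- half the cube has a given coin true. -/
lemma card_coin_true (e : E) :
    2 * (Finset.univ.filter (fun b : E → Bool => b e = true)).card = 2 ^ Fintype.card E := by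
  have h := sum_eps e
  have h2 : ∑ b : E → Bool, eps b e
      = 2 * ((Finset.univ.filter (fun b : E → Bool => b e = true)).card : ℤ)
        - (2 ^ Fintype.card E : ℤ) := by
    have hh := sum_eps_eq ({e} : Finset E)
    have h3 : ∀ b : E → Bool, eps b e = 2 * (if b e = true then (1 : ℤ) else 0) - 1 := by
      intro b; unfold eps; cases b e <;> simp
    simp_rw [h3]
    rw [Finset.sum_sub_distrib, ← Finset.mul_sum]
    simp [Finset.sum_ite, Finset.filter_true_of_mem]
  rw [h2] at h
  have : (2 * ((Finset.univ.filter (fun b : E → Bool => b e = true)).card : ℤ))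
      = (2 ^ Fintype.card E : ℤ) := by linarith
  exact_mod_cast this

/-- a quarter of the cube has two given coins with a given pattern. -/
lemma card_coin_true_false {e f : E} (hef : e ≠ f) :
    4 * (Finset.univ.filter (fun b : E → Bool => b e = true ∧ b f = false)).card
      = 2 ^ Fintype.card E := by
  have h3 : ∀ b : E → Bool, (1 + eps b e) * (1 - eps b f)
      = 4 * (if b e = true ∧ b f = false then (1 : ℤ) else 0) := by
    intro b; unfold eps; cases b e <;> cases b f <;> simp
  have h4 : ∑ b : E → Bool, (1 + eps b e) * (1 - eps b f) = (2 ^ Fintype.card E : ℤ) := by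
    have : ∀ b : E → Bool, (1 + eps b e) * (1 - eps b f)
        = 1 + eps b e - eps b f - eps b e * eps b f := by intro b; ring
    simp_rw [this]
    rw [Finset.sum_sub_distrib, Finset.sum_sub_distrib, Finset.sum_add_distrib, sum_eps, sum_eps,
      sum_eps_mul hef]
    simp
  simp_rw [h3] at h4
  rw [← Finset.mul_sum] at h4
  have h5 : ∑ b : E → Bool, (if b e = true ∧ b f = false then (1 : ℤ) else 0)
      = ((Finset.univ.filter (fun b : E → Bool => b e = true ∧ b f = false)).card : ℤ) := by
    simp [Finset.sum_ite]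
  rw [h5] at h4
  exact_mod_cast h4

end Cheb

end Vale.Agent.P331
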