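import Mathlib

/-!
# Definitions for the one-sample matroid prophet statement (P331)
-/

open MeasureTheory
open scoped ENNReal NNReal

namespace Vale.Agent.P331

open Classical in
/-- `optM M v` is the maximum of `∑ e ∈ I, v e` over the independent sets `I` of the matroid `M`. -/
noncomputable def optM {n : ℕ} (M : Matroid (Fin n)) (v : Fin n → ℝ≥0) : ℝ≥0 :=
  (Finset.univ.filter (fun I : Finset (Fin n) => M.Indep (I : Set (Fin n)))).sup
    (fun I => ∑ e ∈ I, v e)

/-- An online rule on the ground set `Fin n` with seeds in `Ω`.  `ρ S R h e v` is the decision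
(`true` means accept) taken by the rule that received the sample vector `S` and the seed `R`
before the arrivals, when the element `e` arrives with value `v`, after the earlier arrivals
listed in `h` (each with its value).  By its type the decision sees nothing about later
arrivals, about the values of elements that have not yet arrived, or about the laws. -/
abbrev OnlineRule (n : ℕ) (Ω : Type) :=
  (Fin n → ℝ≥0) → Ω → List (Fin n × ℝ≥0) → Fin n → ℝ≥0 → Bool

/-- The set of elements accepted by the rule `ρ` (with sample `S`, seed `R`, values `V`) while the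
elements of the list `es` arrive one at a time, `h` being the list of earlier arrivals. -/
def acceptedFrom {n : ℕ} {Ω : Type} (ρ : OnlineRule n Ω) (S : Fin n → ℝ≥0) (R : Ω)
    (V : Fin n → ℝ≥0) : List (Fin n × ℝ≥0) → List (Fin n) → Finset (Fin n)
  | _, [] => ∅
  | h, e :: es =>
    if ρ S R h e (V e) then insert e (acceptedFrom ρ S R V (h ++ [(e, V e)]) es)
    else acceptedFrom ρ S R V (h ++ [(e, V e)]) es

/-- The set of elements accepted by the rule `ρ` when the elements arrive in the order
`π 0, π 1, …`. -/
def accepted {n : ℕ} {Ω : Type} (ρ : OnlineRule n Ω) (S : Fin n → ℝ≥0) (R : Ω)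
    (V : Fin n → ℝ≥0) (π : Equiv.Perm (Fin n)) : Finset (Fin n) :=
  acceptedFrom ρ S R V [] (List.ofFn π)

end Vale.Agent.P331
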