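import Vale.Agent.P331.Sym

/-!
# Seeds, and the main inequality (P331)
-/

open MeasureTheory
open scoped ENNReal NNReal
open Finset

set_option linter.unusedSectionVars false
set_option linter.unusedSimpArgs false
set_option linter.unusedVariables false

namespace Vale.Agent.P331

open Classical

variable {n : ℕ}

/-- harmonic weights of the rule indices. -/
noncomputable def seedW (j : ℕ) : ℝ≥0∞ := if j = 0 then 1 else (j : ℝ≥0∞)⁻¹

/-- the rule indices: `0` for the top rule, and the levels. -/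
def seedSet (K0 r : ℕ) : Finset ℕ := insert 0 (Finset.Icc K0 (r / 4))

/-- total weight of the rule indices. -/
noncomputable def seedTot (K0 r : ℕ) : ℝ≥0∞ := ∑ j ∈ seedSet K0 r, seedW j

/-- the law of the seed: independent rule index and uniform tie bits. -/
noncomputable def seedMeasure (n K0 r : ℕ) : Measure (Seed n) :=
  ∑ j ∈ seedSet K0 r, ∑ β : Fin n → Bool,
    ((seedTot K0 r)⁻¹ * seedW j * (2 ^ n : ℝ≥0∞)⁻¹) • Measure.dirac ((j, β) : Seed n)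

lemma lintegral_seed (K0 r : ℕ) (f : Seed n → ℝ≥0∞) :
    ∫⁻ R, f R ∂(seedMeasure n K0 r)
      = ∑ j ∈ seedSet K0 r, ∑ β : Fin n → Bool,
          ((seedTot K0 r)⁻¹ * seedW j * (2 ^ n : ℝ≥0∞)⁻¹) * f (j, β) := by
  unfold seedMeasure
  rw [lintegral_finsetSum_measure]
  refine Finset.sum_congr rfl fun j _ => ?_
  rw [lintegral_finsetSum_measure]
  refine Finset.sum_congr rfl fun β _ => ?_
  rw [lintegral_smul_measure, lintegral_dirac, smul_eq_mul]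

lemma seedTot_ne_zero (K0 r : ℕ) : seedTot K0 r ≠ 0 := by
  unfold seedTot seedSet
  intro h
  rw [Finset.sum_eq_zero_iff] at h
  have := h 0 (Finset.mem_insert_self _ _)
  simp [seedW] at this

lemma seedW_ne_top {K0 r j : ℕ} (hK0 : 1 ≤ K0) (hj : j ∈ seedSet K0 r) : seedW j ≠ ⊤ := by
  unfold seedW
  split_ifs with h
  · simp
  · simp only [ne_eq, ENNReal.inv_eq_top, Nat.cast_eq_zero]
    exact h

lemma seedTot_ne_top {K0 r : ℕ} (hK0 : 1 ≤ K0) : seedTot K0 r ≠ ⊤ := by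
  unfold seedTot
  exact (ENNReal.sum_lt_top.mpr fun j hj => (seedW_ne_top hK0 hj).lt_top).ne

lemma seedMeasure_prob {K0 r : ℕ} (hK0 : 1 ≤ K0) : IsProbabilityMeasure (seedMeasure n K0 r) := by
  constructor
  rw [← lintegral_one, lintegral_seed]
  have hN0 : (2 ^ n : ℝ≥0∞) ≠ 0 := by simp
  have hNt : (2 ^ n : ℝ≥0∞) ≠ ⊤ := by simp
  have h1 : ∀ j ∈ seedSet K0 r, ∑ β : Fin n → Bool,
      ((seedTot K0 r)⁻¹ * seedW j * (2 ^ n : ℝ≥0∞)⁻¹) * 1
      = (seedTot K0 r)⁻¹ * seedW j := by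
    intro j _
    simp only [mul_one, Finset.sum_const, Finset.card_univ, Fintype.card_pi,
      Fintype.card_bool, Finset.prod_const, Fintype.card_fin, nsmul_eq_mul]
    push_cast
    calc (2 ^ n : ℝ≥0∞) * ((seedTot K0 r)⁻¹ * seedW j * (2 ^ n : ℝ≥0∞)⁻¹)
        = ((2 ^ n : ℝ≥0∞)⁻¹ * (2 ^ n : ℝ≥0∞)) * ((seedTot K0 r)⁻¹ * seedW j) := by ring
      _ = _ := by rw [ENNReal.inv_mul_cancel hN0 hNt, one_mul]
  rw [Finset.sum_congr rfl h1, ← Finset.mul_sum]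
  exact ENNReal.inv_mul_cancel (seedTot_ne_zero K0 r) (seedTot_ne_top hK0)

/-- worst value at a seed. -/
noncomputable def worstAt (M : Matroid (Fin n)) (K0 : ℕ) (p : (Fin n → ℝ≥0) × (Fin n → ℝ≥0))
    (R : Seed n) : ℝ≥0∞ :=
  worst M (passSet M K0 p.1 p.2 R) (fun e => (p.2 e : ℝ≥0∞))

lemma sum_seed_worst (M : Matroid (Fin n)) {K0 : ℕ} (hK0 : 1 ≤ K0) (r : ℕ)
    (p : (Fin n → ℝ≥0) × (Fin n → ℝ≥0)) (β : Fin n → Bool) :
    ∑ j ∈ seedSet K0 r, seedW j * worstAt M K0 p (j, β) = totAt M K0 r p.1 p.2 β := by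
  unfold seedSet totAt totalRule
  rw [Finset.sum_insert (by simp; omega)]
  congr 1
  · simp only [seedW, if_true, one_mul, worstAt]
    rw [passSet_zero]
  · refine Finset.sum_congr rfl fun k hk => ?_
    have hk0 : k ≠ 0 := by
      have := (Finset.mem_Icc.mp hk).1
      omega
    simp only [seedW, if_neg hk0, worstAt]
    rw [passSet_level M K0 p.1 p.2 β hk0]

lemma lintegral_worstAt (M : Matroid (Fin n)) {K0 : ℕ} (hK0 : 1 ≤ K0) (r : ℕ)
    (p : (Fin n → ℝ≥0) × (Fin n → ℝ≥0)) :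
    ∫⁻ R, worstAt M K0 p R ∂(seedMeasure n K0 r)
      = (seedTot K0 r)⁻¹ * (2 ^ n : ℝ≥0∞)⁻¹ * ∑ β : Fin n → Bool, totAt M K0 r p.1 p.2 β := by
  rw [lintegral_seed, Finset.sum_comm, Finset.mul_sum]
  refine Finset.sum_congr rfl fun β _ => ?_
  rw [← sum_seed_worst M hK0 r p β, Finset.mul_sum]
  refine Finset.sum_congr rfl fun j _ => ?_
  ring

lemma measurable_worstAt (M : Matroid (Fin n)) (K0 : ℕ) :
    Measurable fun x : ((Fin n → ℝ≥0) × (Fin n → ℝ≥0)) × Seed n => worstAt M K0 x.1 x.2 := by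
  refine measurable_from_prod_countable_left fun R => ?_
  obtain ⟨j, β⟩ := R
  by_cases hj : j = 0
  · subst hj
    have : (fun p : (Fin n → ℝ≥0) × (Fin n → ℝ≥0) => worstAt M K0 p (0, β))
        = fun p => worst M (topPass M K0 (ksOf p.1 β) (kvOf p.2 β)) (fun e => (p.2 e : ℝ≥0∞)) := by
      funext p
      simp only [worstAt]
      rw [passSet_zero]
    rw [this]
    exact measurable_worst_top M K0 β
  · have : (fun p : (Fin n → ℝ≥0) × (Fin n → ℝ≥0) => worstAt M K0 p (j, β))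
        = fun p => worst M (levelPass M j (ksOf p.1 β) (kvOf p.2 β)) (fun e => (p.2 e : ℝ≥0∞)) := by
      funext p
      simp only [worstAt]
      rw [passSet_level M K0 p.1 p.2 β hj]
    rw [this]
    exact measurable_worst_level M j β

/-- The main inequality, for an arbitrary adversary. -/
theorem main_ineq (M : Matroid (Fin n)) {K0 g r : ℕ} (hK0 : 1 ≤ K0) (hg : 2 ≤ g)
    (hgirth : ∀ I : Finset (Fin n), I.card < g → (∀ e ∈ I, M.Indep ({e} : Set (Fin n))) →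
      M.Indep (I : Set (Fin n)))
    (hcase : K0 = 1 ∨ 4 * K0 ≤ g)
    (hr : ∀ I : Finset (Fin n), M.Indep (I : Set (Fin n)) → I.card ≤ r)
    (D : Fin n → Measure ℝ≥0) [∀ e, IsProbabilityMeasure (D e)]
    (adv : (Fin n → ℝ≥0) → (Fin n → ℝ≥0) → Seed n → Equiv.Perm (Fin n)) :
    (seedTot K0 r)⁻¹ * (16 : ℝ≥0∞)⁻¹ * ∫⁻ V, (optM M V : ℝ≥0∞) ∂(Measure.pi D) ≤
      ∫⁻ x, ∑ e ∈ accepted (theRule M K0) x.1.1 x.2 x.1.2 (adv x.1.1 x.1.2 x.2), (x.1.2 e : ℝ≥0∞)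
        ∂(((Measure.pi D).prod (Measure.pi D)).prod (seedMeasure n K0 r)) := by
  have := seedMeasure_prob (n := n) (K0 := K0) (r := r) hK0
  set μ := (Measure.pi D).prod (Measure.pi D) with hμ
  have hsym := sym_bound M hK0 hg hgirth hcase hr D
  rw [← hμ] at hsym
  set A := ∫⁻ p, (optM M p.2 : ℝ≥0∞) ∂μ with hA
  set B := ∫⁻ p, ∑ β : Fin n → Bool, totAt M K0 r p.1 p.2 β ∂μ with hB
  have hBm : Measurable fun p : (Fin n → ℝ≥0) × (Fin n → ℝ≥0) =>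
      ∑ β : Fin n → Bool, totAt M K0 r p.1 p.2 β :=
    Finset.measurable_sum _ fun β _ => measurable_totAt M K0 r β
  have hopt : ∫⁻ V, (optM M V : ℝ≥0∞) ∂(Measure.pi D) = A := by
    rw [hA, hμ]
    exact ((measurePreserving_snd (μ := Measure.pi D) (ν := Measure.pi D)).lintegral_comp
      (measurable_optM M)).symm
  have hN0 : (2 ^ n : ℝ≥0∞) ≠ 0 := by simp
  have hNt : (2 ^ n : ℝ≥0∞) ≠ ⊤ := by simp
  have h16 : (16 : ℝ≥0∞)⁻¹ * A ≤ (2 ^ n : ℝ≥0∞)⁻¹ * B := by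
    calc (16 : ℝ≥0∞)⁻¹ * A
        = (16 : ℝ≥0∞)⁻¹ * (((2 ^ n : ℝ≥0∞)⁻¹ * (2 ^ n : ℝ≥0∞)) * A) := by
          rw [ENNReal.inv_mul_cancel hN0 hNt, one_mul]
      _ = (16 : ℝ≥0∞)⁻¹ * ((2 ^ n : ℝ≥0∞)⁻¹ * ((2 ^ n : ℝ≥0∞) * A)) := by ring
      _ ≤ (16 : ℝ≥0∞)⁻¹ * ((2 ^ n : ℝ≥0∞)⁻¹ * (16 * B)) := by gcongr
      _ = ((16 : ℝ≥0∞)⁻¹ * 16) * ((2 ^ n : ℝ≥0∞)⁻¹ * B) := by ring
      _ = (2 ^ n : ℝ≥0∞)⁻¹ * B := by
          rw [ENNReal.inv_mul_cancel (by norm_num) (by norm_num), one_mul]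
  rw [hopt]
  calc (seedTot K0 r)⁻¹ * (16 : ℝ≥0∞)⁻¹ * A
      = (seedTot K0 r)⁻¹ * ((16 : ℝ≥0∞)⁻¹ * A) := by ring
    _ ≤ (seedTot K0 r)⁻¹ * ((2 ^ n : ℝ≥0∞)⁻¹ * B) := by gcongr
    _ = ∫⁻ p, ∫⁻ R, worstAt M K0 p R ∂(seedMeasure n K0 r) ∂μ := by
        simp_rw [lintegral_worstAt M hK0 r]
        rw [lintegral_const_mul _ hBm, hB]
        ring
    _ = ∫⁻ x, worstAt M K0 x.1 x.2 ∂(μ.prod (seedMeasure n K0 r)) :=
        (lintegral_prod _ (measurable_worstAt M K0).aemeasurable).symm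
    _ ≤ _ := by
        refine lintegral_mono fun x => ?_
        exact worst_le_value M K0 x.1.1 x.1.2 x.2 _

end Vale.Agent.P331
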