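import Vale.Agent.P331.Core

/-!
# Level rules and top rule: coin-flip bounds (P331)
-/

open scoped ENNReal
open Finset

set_option linter.unusedSectionVars false
set_option linter.unusedSimpArgs false
set_option linter.unusedVariables false

namespace Vale.Agent.P331

variable {E : Type} [Fintype E] [DecidableEq E] {κ : Type} [LinearOrder κ]

open Classical

/-- pass set of the level `k` threshold rule. -/
noncomputable def levelPass (M : Matroid E) (k : ℕ) (ks kv : E → κ) : Finset E :=
  univ.filter (fun e => rkF M (univ.filter fun f => kv e ≤ ks f) < k)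

lemma mem_levelPass (M : Matroid E) (k : ℕ) (ks kv : E → κ) (e : E) :
    e ∈ levelPass M k ks kv ↔ rkF M (univ.filter fun f => kv e ≤ ks f) < k := by
  simp [levelPass]

lemma rkF_pos_nonempty (M : Matroid E) {X : Finset E} (h : 1 ≤ rkF M X) : X.Nonempty := by
  by_contra hne
  rw [Finset.not_nonempty_iff_eq_empty] at hne
  subst hne
  have : rkF M ∅ = 0 := by
    obtain ⟨I, hI, _, hc⟩ := exists_of_rkF M (∅ : Finset E)
    rw [← hc, Finset.subset_empty.mp hI]
    rfl
  omega

lemma threshold_exists (M : Matroid E) (ks : E → κ) {k : ℕ} (hk : 1 ≤ k)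
    (hS : k ≤ rkF M univ) :
    ∃ f₀, k ≤ rkF M (univ.filter fun f => ks f₀ ≤ ks f) ∧
      ∀ x : κ, ks f₀ < x → rkF M (univ.filter fun f => x ≤ ks f) < k := by
  have hne : (univ : Finset E).Nonempty := rkF_pos_nonempty M (le_trans hk hS)
  obtain ⟨fm, -, hfm⟩ := Finset.exists_min_image univ ks hne
  have hF : (univ.filter fun f₀ => k ≤ rkF M (univ.filter fun f => ks f₀ ≤ ks f)).Nonempty := by
    refine ⟨fm, ?_⟩
    simp only [mem_filter, mem_univ, true_and]
    refine le_trans hS (rkF_mono M ?_)
    intro f _
    simp [hfm f (mem_univ f)]
  obtain ⟨f₀, hf₀, hmax⟩ := Finset.exists_max_image _ ks hF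
  simp only [mem_filter, mem_univ, true_and] at hf₀ hmax
  refine ⟨f₀, hf₀, fun x hx => ?_⟩
  by_contra hcon
  push Not at hcon
  have hXne := rkF_pos_nonempty M (le_trans hk hcon)
  obtain ⟨f₁, hf₁, hmin⟩ := Finset.exists_min_image _ ks hXne
  simp only [mem_filter, mem_univ, true_and] at hf₁ hmin
  have hf₁F : k ≤ rkF M (univ.filter fun f => ks f₁ ≤ ks f) := by
    refine le_trans hcon (rkF_mono M ?_)
    intro f hf
    simp only [mem_filter, mem_univ, true_and] at hf ⊢
    exact hmin f hf
  have := hmax f₁ hf₁F
  exact absurd (lt_of_lt_of_le hx hf₁) (not_lt.mpr this)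

lemma pass_rank_or (M : Matroid E) (ks kv : E → κ) (hdisj : ∀ e f, ks e ≠ kv f) {k : ℕ}
    (hk : 1 ≤ k) (hS : k ≤ rkF M univ) :
    k ≤ rkF M (levelPass M k ks kv) ∨ k ≤ rkF M (levelPass M k kv ks) := by
  obtain ⟨f₀, hf₀, hs⟩ := threshold_exists M ks hk hS
  obtain ⟨f₁, hf₁, hv⟩ := threshold_exists M kv hk hS
  rcases lt_or_gt_of_ne (hdisj f₀ f₁) with hlt | hlt
  · left
    refine le_trans hf₁ (rkF_mono M ?_)
    intro f hf
    simp only [mem_filter, mem_univ, true_and] at hf
    rw [mem_levelPass]
    exact hs _ (lt_of_lt_of_le hlt hf)
  · right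
    refine le_trans hf₀ (rkF_mono M ?_)
    intro f hf
    simp only [mem_filter, mem_univ, true_and] at hf
    rw [mem_levelPass]
    exact hv _ (lt_of_lt_of_le hlt hf)

/-- value side key under the coin pattern `b`. -/
def keyV (K : E → Bool → κ) (b : E → Bool) (e : E) : κ := K e (b e)

/-- sample side key under the coin pattern `b`. -/
def keyS (K : E → Bool → κ) (b : E → Bool) (e : E) : κ := K e (!b e)

/-- complement of a coin pattern -/
def notB (b : E → Bool) : E → Bool := fun e => !b e

lemma notB_notB (b : E → Bool) : notB (notB b) = b := by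
  funext e; simp [notB]

lemma keyV_notB (K : E → Bool → κ) (b : E → Bool) : keyV K (notB b) = keyS K b := rfl

lemma keyS_notB (K : E → Bool → κ) (b : E → Bool) : keyS K (notB b) = keyV K b := by
  funext e; simp [keyS, keyV, notB]

lemma trueCount_notB (Z : Finset E) (b : E → Bool) :
    trueCount Z (notB b) + trueCount Z b = Z.card := by
  unfold trueCount notB
  have := Finset.card_filter_add_card_filter_not (s := Z) (fun e => b e = true)
  rw [← this, add_comm]
  congr 2
  ext e
  simp

lemma K_le_true (K : E → Bool → κ) (hlt : ∀ e, K e false < K e true) (e : E) (c : Bool) :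
    K e c ≤ K e true := by
  cases c
  · exact (hlt e).le
  · exact le_rfl

lemma keyS_ne_keyV (K : E → Bool → κ) (hinj : ∀ e f c d, K e c = K f d → e = f ∧ c = d)
    (b : E → Bool) (e f : E) : keyS K b e ≠ keyV K b f := by
  intro h
  obtain ⟨h1, h2⟩ := hinj _ _ _ _ h
  subst h1
  cases hb : b e <;> simp [hb] at h2

theorem level_bound (M : Matroid E) (K : E → Bool → κ)
    (hinj : ∀ e f c d, K e c = K f d → e = f ∧ c = d) (hlt : ∀ e, K e false < K e true)
    (val : κ → ℝ≥0∞) (hval : Monotone val) {k : ℕ} (hk : 1 ≤ k) {Z : Finset E}
    (hZi : M.Indep (Z : Set E)) (hZc : Z.card = 4 * k) {u : ℝ≥0∞}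
    (hu : ∀ e ∈ Z, u ≤ val (K e true)) :
    (2 ^ Fintype.card E : ℝ≥0∞) * (k : ℝ≥0∞) * u ≤
      4 * ∑ b : E → Bool, worst M (levelPass M k (keyS K b) (keyV K b))
        (fun e => val (keyV K b e)) := by
  have hZne : Z.Nonempty := by
    rw [← Finset.card_pos]; omega
  obtain ⟨z₀, hz₀, hmin⟩ := Finset.exists_min_image Z (fun e => K e true) hZne
  set t := K z₀ true with ht
  have hut : u ≤ val t := hu z₀ hz₀
  have hrkU : k ≤ rkF M univ := by
    have := le_rkF M (Finset.subset_univ Z) hZi
    omega
  -- the sets
  set A : Finset (E → Bool) :=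
    univ.filter (fun b => k ≤ trueCount Z b ∧ trueCount Z b ≤ 3 * k) with hA
  set B : Finset (E → Bool) :=
    univ.filter (fun b => k ≤ rkF M (levelPass M k (keyS K b) (keyV K b)) ∧
      k ≤ rkF M (univ.filter fun f => t ≤ keyS K b f)) with hB
  -- rank on the sample side for patterns in `A`
  have hside : ∀ b, trueCount Z b ≤ 3 * k →
      k ≤ rkF M (univ.filter fun f => t ≤ keyS K b f) := by
    intro b hb
    have hsub : Z.filter (fun e => b e = false) ⊆ univ.filter fun f => t ≤ keyS K b f := by
      intro e he
      simp only [mem_filter, mem_univ, true_and] at he ⊢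
      have : keyS K b e = K e true := by simp [keyS, he.2]
      rw [this]
      exact hmin e he.1
    have hind : M.Indep ((Z.filter (fun e => b e = false) : Finset E) : Set E) := by
      refine hZi.subset ?_
      intro x hx
      simp only [mem_coe, mem_filter] at hx
      exact_mod_cast hx.1
    have hcard : (Z.filter (fun e => b e = false)).card + trueCount Z b = Z.card := by
      unfold trueCount
      have := Finset.card_filter_add_card_filter_not (s := Z) (fun e => b e = true)
      rw [← this, add_comm]
      congr 2
      ext e
      simp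
    have := le_rkF M hsub hind
    omega
  have hAB : A ⊆ B ∪ B.image notB := by
    intro b hb
    simp only [hA, mem_filter, mem_univ, true_and] at hb
    have h1 := trueCount_notB Z b
    have hS1 := hside b hb.2
    have hS2 : k ≤ rkF M (univ.filter fun f => t ≤ keyS K (notB b) f) :=
      hside (notB b) (by omega)
    rcases pass_rank_or M (keyS K b) (keyV K b) (keyS_ne_keyV K hinj b) hk hrkU with h | h
    · refine Finset.mem_union_left _ ?_
      simp only [hB, mem_filter, mem_univ, true_and]
      exact ⟨h, hS1⟩
    · refine Finset.mem_union_right _ ?_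
      refine Finset.mem_image.mpr ⟨notB b, ?_, notB_notB b⟩
      simp only [hB, mem_filter, mem_univ, true_and]
      refine ⟨?_, hS2⟩
      rw [keyS_notB, keyV_notB]
      exact h
  have hcardAB : A.card ≤ 2 * B.card := by
    calc A.card ≤ (B ∪ B.image notB).card := Finset.card_le_card hAB
      _ ≤ B.card + (B.image notB).card := Finset.card_union_le _ _
      _ ≤ B.card + B.card := by
          have := Finset.card_image_le (s := B) (f := notB)
          omega
      _ = 2 * B.card := by ring
  have hbad := level_bad_card Z k hk hZc
  have hAcard : (univ : Finset (E → Bool)).card ≤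
      A.card + (univ.filter (fun b : E → Bool =>
        trueCount Z b < k ∨ 3 * k < trueCount Z b)).card := by
    rw [← Finset.card_union_of_disjoint]
    · refine Finset.card_le_card fun b _ => ?_
      simp only [hA, mem_union, mem_filter, mem_univ, true_and]
      omega
    · rw [Finset.disjoint_left]
      intro b hb hb2
      simp only [hA, mem_filter, mem_univ, true_and] at hb hb2
      omega
  rw [card_cube] at hAcard
  have hNB : 2 ^ Fintype.card E ≤ 4 * B.card := by omega
  -- pointwise bound on `B`
  have hpt : ∀ b ∈ B, (k : ℝ≥0∞) * u ≤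
      worst M (levelPass M k (keyS K b) (keyV K b)) (fun e => val (keyV K b e)) := by
    intro b hb
    simp only [hB, mem_filter, mem_univ, true_and] at hb
    refine count_le_worst M hb.1 fun e he => ?_
    rw [mem_levelPass] at he
    have hlt' : t < keyV K b e := by
      by_contra hle
      push Not at hle
      have : k ≤ rkF M (univ.filter fun f => keyV K b e ≤ keyS K b f) := by
        refine le_trans hb.2 (rkF_mono M ?_)
        intro f hf
        simp only [mem_filter, mem_univ, true_and] at hf ⊢
        exact hle.trans hf
      omega
    exact hut.trans (hval hlt'.le)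
  calc (2 ^ Fintype.card E : ℝ≥0∞) * (k : ℝ≥0∞) * u
      ≤ ((4 * B.card : ℕ) : ℝ≥0∞) * ((k : ℝ≥0∞) * u) := by
        rw [mul_assoc]
        gcongr
        exact_mod_cast hNB
    _ = 4 * ∑ _b ∈ B, ((k : ℝ≥0∞) * u) := by
        simp [Finset.sum_const, nsmul_eq_mul, mul_assoc]
    _ ≤ 4 * ∑ b ∈ B, worst M (levelPass M k (keyS K b) (keyV K b))
        (fun e => val (keyV K b e)) := by
        gcongr with b hb
        exact hpt b hb
    _ ≤ 4 * ∑ b : E → Bool, worst M (levelPass M k (keyS K b) (keyV K b))
        (fun e => val (keyV K b e)) := by
        gcongr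
        exact Finset.subset_univ _

/-- the non-loops. -/
noncomputable def nonloops (M : Matroid E) : Finset E :=
  univ.filter (fun e => M.Indep ({e} : Set E))

/-- pass set of the top rule. -/
noncomputable def topPass (M : Matroid E) (K0 : ℕ) (ks kv : E → κ) : Finset E :=
  (nonloops M).filter (fun e => ((nonloops M).filter fun f => kv e ≤ ks f).card < K0)

lemma mem_topPass (M : Matroid E) (K0 : ℕ) (ks kv : E → κ) (e : E) :
    e ∈ topPass M K0 ks kv ↔
      e ∈ nonloops M ∧ ((nonloops M).filter fun f => kv e ≤ ks f).card < K0 := by
  simp [topPass]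

lemma exists_upper (L : Finset E) (a : E → κ) (ha : Function.Injective a) (j : ℕ)
    (hj : j ≤ L.card) : ∃ U, U ⊆ L ∧ U.card = j ∧ ∀ x ∈ U, ∀ y ∈ L, y ∉ U → a y < a x := by
  induction j with
  | zero => exact ⟨∅, by simp, by simp, by simp⟩
  | succ j ih =>
    obtain ⟨U, hUL, hUc, hup⟩ := ih (by omega)
    have hne : (L \ U).Nonempty := by
      rw [← Finset.card_pos, Finset.card_sdiff_of_subset hUL]
      omega
    obtain ⟨x, hx, hmax⟩ := Finset.exists_max_image (L \ U) a hne
    rw [Finset.mem_sdiff] at hx
    refine ⟨insert x U, Finset.insert_subset hx.1 hUL, ?_, ?_⟩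
    · rw [Finset.card_insert_of_notMem hx.2, hUc]
    · intro z hz y hy hyU
      rw [Finset.mem_insert] at hz hyU
      push Not at hyU
      rcases hz with rfl | hz
      · have h1 := hmax y (Finset.mem_sdiff.mpr ⟨hy, hyU.2⟩)
        exact lt_of_le_of_ne h1 (fun h => hyU.1 (ha h))
      · exact hup z hz y hy hyU.2

theorem top_bound (M : Matroid E) (K : E → Bool → κ)
    (hinj : ∀ e f c d, K e c = K f d → e = f ∧ c = d) (hlt : ∀ e, K e false < K e true)
    (val : κ → ℝ≥0∞) (hval : Monotone val) {K0 g : ℕ} (hK0 : 1 ≤ K0) (hg : 2 ≤ g)
    (hgirth : ∀ I : Finset E, I.card < g → (∀ e ∈ I, M.Indep ({e} : Set E)) → M.Indep (I : Set E))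
    (hcase : K0 = 1 ∨ 4 * K0 ≤ g) {T : Finset E} (hTL : T ⊆ nonloops M) (hTc : T.card ≤ K0)
    (hup : ∀ x ∈ T, ∀ y ∈ nonloops M, y ∉ T → K y true < K x true) :
    (2 ^ Fintype.card E : ℝ≥0∞) * ∑ e ∈ T, val (K e true) ≤
      4 * ∑ b : E → Bool, worst M (topPass M K0 (keyS K b) (keyV K b))
        (fun e => val (keyV K b e)) := by
  set P : (E → Bool) → Finset E := fun b => topPass M K0 (keyS K b) (keyV K b) with hP
  -- elements of T with true coin pass
  have hpass : ∀ b, ∀ e ∈ T, b e = true → e ∈ P b := by
    intro b e he hb
    rw [hP]
    simp only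
    rw [mem_topPass]
    refine ⟨hTL he, ?_⟩
    have hkv : keyV K b e = K e true := by simp [keyV, hb]
    have hsub : ((nonloops M).filter fun f => keyV K b e ≤ keyS K b f) ⊆ T.erase e := by
      intro f hf
      simp only [mem_filter] at hf
      rw [hkv] at hf
      have hf2 : K e true ≤ K f true := hf.2.trans (K_le_true K hlt f _)
      refine Finset.mem_erase.mpr ⟨?_, ?_⟩
      · rintro rfl
        have : keyS K b f = K f false := by simp [keyS, hb]
        rw [this] at hf
        exact absurd hf.2 (not_le.mpr (hlt f))
      · by_contra hfT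
        exact absurd hf2 (not_le.mpr (hup e he f hf.1 hfT))
    have h1 := Finset.card_le_card hsub
    have h2 := Finset.card_erase_of_mem he
    have h3 : 1 ≤ T.card := Finset.card_pos.mpr ⟨e, he⟩
    omega
  -- pointwise
  have hpt : ∀ b : E → Bool, ∑ e ∈ T, (if b e = true ∧ (P b).card < g then val (K e true) else 0)
      ≤ worst M (P b) (fun e => val (keyV K b e)) := by
    intro b
    by_cases hc : (P b).card < g
    · have hPL : P b ⊆ nonloops M := by
        rw [hP]; exact Finset.filter_subset _ _
      have hind : M.Indep ((P b : Finset E) : Set E) := by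
        refine hgirth _ hc fun e he => ?_
        have := hPL he
        simpa [nonloops] using this
      refine le_trans ?_ (sum_le_worst_of_indep M hind)
      have hsum : ∑ e ∈ T, (if b e = true ∧ (P b).card < g then val (K e true) else 0)
          = ∑ e ∈ T.filter (fun e => b e = true), val (keyV K b e) := by
        rw [Finset.sum_filter]
        refine Finset.sum_congr rfl fun e _ => ?_
        by_cases he : b e = true
        · simp [he, hc, keyV]
        · simp [he]
      rw [hsum]
      refine Finset.sum_le_sum_of_subset fun e he => ?_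
      simp only [mem_filter] at he
      exact hpass b e he.1 he.2
    · have : ∑ e ∈ T, (if b e = true ∧ (P b).card < g then val (K e true) else 0) = 0 := by
        refine Finset.sum_eq_zero fun e _ => ?_
        simp [hc]
      rw [this]
      exact zero_le
  -- counting
  have hcount : ∀ e ∈ T, (2 ^ Fintype.card E : ℕ) ≤
      4 * (univ.filter (fun b : E → Bool => b e = true ∧ (P b).card < g)).card := by
    intro e he
    by_cases hL : (nonloops M).card < g
    · have hsame : (univ.filter (fun b : E → Bool => b e = true ∧ (P b).card < g))
          = univ.filter (fun b : E → Bool => b e = true) := by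
        refine Finset.filter_congr fun b _ => ?_
        have : (P b).card ≤ (nonloops M).card := by
          refine Finset.card_le_card ?_
          rw [hP]; exact Finset.filter_subset _ _
        constructor
        · exact fun h => h.1
        · exact fun h => ⟨h, by omega⟩
      rw [hsame]
      have := card_coin_true e
      omega
    · push Not at hL
      have hainj : Function.Injective (fun e => K e true) := by
        intro x y hxy
        exact (hinj _ _ _ _ hxy).1
      obtain ⟨W, hWL, hWc, hWup⟩ := exists_upper (nonloops M) (fun e => K e true) hainj g hL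
      -- if many pass then few false coins in W
      have hbadF : ∀ b : E → Bool, g ≤ (P b).card →
          (W.filter (fun w => b w = false)).card < K0 := by
        intro b hb
        have hne : (P b).Nonempty := by
          rw [← Finset.card_pos]; omega
        obtain ⟨f₀, hf₀, hmin⟩ := Finset.exists_min_image (P b) (keyV K b) hne
        have hf₀' := hf₀
        rw [hP] at hf₀'
        simp only at hf₀'
        rw [mem_topPass] at hf₀'
        have hsub : W.filter (fun w => b w = false) ⊆
            (nonloops M).filter fun f => keyV K b f₀ ≤ keyS K b f := by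
          intro w hw
          simp only [mem_filter] at hw ⊢
          refine ⟨hWL hw.1, ?_⟩
          have hkw : keyS K b w = K w true := by simp [keyS, hw.2]
          rw [hkw]
          by_contra hcon
          push Not at hcon
          have hPW : P b ⊆ W.erase w := by
            intro f hf
            have hfL : f ∈ nonloops M := by
              have := hf
              rw [hP] at this
              simp only at this
              rw [mem_topPass] at this
              exact this.1
            have h1 : K w true < K f true :=
              lt_of_lt_of_le hcon ((hmin f hf).trans (K_le_true K hlt f _))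
            refine Finset.mem_erase.mpr ⟨?_, ?_⟩
            · rintro rfl
              exact absurd h1 (lt_irrefl _)
            · by_contra hfW
              exact absurd h1 (not_lt.mpr (hWup w hw.1 f hfL hfW).le)
          have h2 := Finset.card_le_card hPW
          have h3 := Finset.card_erase_of_mem hw.1
          have h4 : 1 ≤ W.card := Finset.card_pos.mpr ⟨w, hw.1⟩
          omega
        exact lt_of_le_of_lt (Finset.card_le_card hsub) hf₀'.2
      rcases hcase with h1 | h4
      · -- K0 = 1
        have hWne : (W.erase e).Nonempty := by
          rw [← Finset.card_pos]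
          have := Finset.pred_card_le_card_erase (s := W) (a := e)
          omega
        obtain ⟨w, hw⟩ := hWne
        have hwW := Finset.mem_of_mem_erase hw
        have hew : e ≠ w := (Finset.ne_of_mem_erase hw).symm
        have hsub : univ.filter (fun b : E → Bool => b e = true ∧ b w = false) ⊆
            univ.filter (fun b : E → Bool => b e = true ∧ (P b).card < g) := by
          intro b hb
          simp only [mem_filter, mem_univ, true_and] at hb ⊢
          refine ⟨hb.1, ?_⟩
          by_contra hcon
          push Not at hcon
          have h5 := hbadF b hcon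
          have h6 : 1 ≤ (W.filter (fun w => b w = false)).card :=
            Finset.card_pos.mpr ⟨w, by simp [hwW, hb.2]⟩
          omega
        have h7 := Finset.card_le_card hsub
        have h8 := card_coin_true_false hew
        omega
      · -- 4 K0 ≤ g
        have hbad := top_bad_card W K0 hK0 (by omega)
        have hsplit : (univ.filter (fun b : E → Bool => b e = true)).card ≤
            (univ.filter (fun b : E → Bool => b e = true ∧ (P b).card < g)).card +
            (univ.filter (fun b : E → Bool =>
              (W.filter (fun w => b w = false)).card < K0)).card := by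
          refine le_trans (Finset.card_le_card ?_) (Finset.card_union_le _ _)
          intro b hb
          simp only [mem_filter, mem_univ, true_and, mem_union] at hb ⊢
          by_cases hc : (P b).card < g
          · exact Or.inl ⟨hb, hc⟩
          · exact Or.inr (hbadF b (not_lt.mp hc))
        have h8 := card_coin_true e
        omega
  -- assembling
  have hswap : ∑ b : E → Bool, ∑ e ∈ T, (if b e = true ∧ (P b).card < g then val (K e true) else 0)
      = ∑ e ∈ T, ((univ.filter (fun b : E → Bool => b e = true ∧ (P b).card < g)).card : ℝ≥0∞)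
          * val (K e true) := by
    rw [Finset.sum_comm]
    refine Finset.sum_congr rfl fun e _ => ?_
    rw [← Finset.sum_filter, Finset.sum_const, nsmul_eq_mul]
  calc (2 ^ Fintype.card E : ℝ≥0∞) * ∑ e ∈ T, val (K e true)
      = ∑ e ∈ T, (2 ^ Fintype.card E : ℝ≥0∞) * val (K e true) := by
        rw [Finset.mul_sum]
    _ ≤ ∑ e ∈ T, (4 * ((univ.filter (fun b : E → Bool => b e = true ∧ (P b).card < g)).card
          : ℝ≥0∞)) * val (K e true) := by
        refine Finset.sum_le_sum fun e he => ?_
        gcongr
        exact_mod_cast hcount e he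
    _ = 4 * ∑ b : E → Bool, ∑ e ∈ T,
          (if b e = true ∧ (P b).card < g then val (K e true) else 0) := by
        rw [hswap, Finset.mul_sum]
        refine Finset.sum_congr rfl fun e _ => ?_
        ring
    _ ≤ 4 * ∑ b : E → Bool, worst M (P b) (fun e => val (keyV K b e)) := by
        gcongr with b _
        exact hpt b

end Vale.Agent.P331
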