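import Vale.Agent.P331.Total
import Vale.Agent.P331.Defs

/-!
# The threshold rule and its run (P331)
-/

open scoped ENNReal NNReal
open Finset

set_option linter.unusedSectionVars false
set_option linter.unusedSimpArgs false
set_option linter.unusedVariables false

namespace Vale.Agent.P331

open Classical

variable {n : ℕ}

/-- keys: value, then element, then a tie bit. -/
abbrev Key (n : ℕ) := ℝ≥0 ×ₗ (Fin n ×ₗ Bool)

/-- the key of a token. -/
def keyOf (x : ℝ≥0) (e : Fin n) (c : Bool) : Key n := toLex (x, toLex (e, c))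

/-- value of a key. -/
def keyVal (k : Key n) : ℝ≥0∞ := ((ofLex k).1 : ℝ≥0∞)

lemma keyVal_mono : Monotone (keyVal : Key n → ℝ≥0∞) := by
  intro a b h
  unfold keyVal
  have := Prod.Lex.monotone_fst_ofLex h
  exact_mod_cast this

@[simp] lemma keyVal_keyOf (x : ℝ≥0) (e : Fin n) (c : Bool) : keyVal (keyOf x e c) = x := rfl

/-- seeds: rule index and tie bits. -/
abbrev Seed (n : ℕ) := ℕ × (Fin n → Bool)

/-- sample keys for tie bits `β`. -/
def ksOf (S : Fin n → ℝ≥0) (β : Fin n → Bool) (f : Fin n) : Key n := keyOf (S f) f (β f)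

/-- value keys for tie bits `β`. -/
def kvOf (V : Fin n → ℝ≥0) (β : Fin n → Bool) (f : Fin n) : Key n := keyOf (V f) f (!β f)

/-- whether the element `e` arriving with value `v` clears the threshold determined by the sample
`S` and the seed `R` (index `0`: top rule; index `k ≥ 1`: level `k` rule). -/
def passOf (M : Matroid (Fin n)) (K0 : ℕ) (S : Fin n → ℝ≥0) (R : Seed n) (e : Fin n) (v : ℝ≥0) :
    Prop :=
  if R.1 = 0 then e ∈ topPass M K0 (ksOf S R.2) (fun _ => keyOf v e (!R.2 e))
  else e ∈ levelPass M R.1 (ksOf S R.2) (fun _ => keyOf v e (!R.2 e))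

/-- one step of the run on a history. -/
noncomputable def stepAcc (M : Matroid (Fin n)) (K0 : ℕ) (S : Fin n → ℝ≥0) (R : Seed n)
    (A : Finset (Fin n)) (p : Fin n × ℝ≥0) : Finset (Fin n) :=
  if passOf M K0 S R p.1 p.2 ∧ M.Indep ((insert p.1 A : Finset (Fin n)) : Set (Fin n))
  then insert p.1 A else A

/-- accepted set after a history. -/
noncomputable def accH (M : Matroid (Fin n)) (K0 : ℕ) (S : Fin n → ℝ≥0) (R : Seed n)
    (h : List (Fin n × ℝ≥0)) : Finset (Fin n) :=
  h.foldl (stepAcc M K0 S R) ∅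

/-- the online rule -/
noncomputable def theRule (M : Matroid (Fin n)) (K0 : ℕ) : OnlineRule n (Seed n) :=
  fun S R h e v => decide (passOf M K0 S R e v ∧
    M.Indep ((insert e (accH M K0 S R h) : Finset (Fin n)) : Set (Fin n)))

lemma accH_snoc (M : Matroid (Fin n)) (K0 : ℕ) (S : Fin n → ℝ≥0) (R : Seed n)
    (h : List (Fin n × ℝ≥0)) (p : Fin n × ℝ≥0) :
    accH M K0 S R (h ++ [p]) = stepAcc M K0 S R (accH M K0 S R h) p := by
  simp [accH, List.foldl_append]

lemma acceptedFrom_cons {Ω : Type} (ρ : OnlineRule n Ω) (S : Fin n → ℝ≥0) (R : Ω)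
    (V : Fin n → ℝ≥0) (h : List (Fin n × ℝ≥0)) (e : Fin n) (es : List (Fin n)) :
    acceptedFrom ρ S R V h (e :: es) =
      if ρ S R h e (V e) then insert e (acceptedFrom ρ S R V (h ++ [(e, V e)]) es)
      else acceptedFrom ρ S R V (h ++ [(e, V e)]) es := rfl

lemma union_acceptedFrom (M : Matroid (Fin n)) (K0 : ℕ) (S V : Fin n → ℝ≥0) (R : Seed n)
    (es : List (Fin n)) (h : List (Fin n × ℝ≥0)) :
    accH M K0 S R h ∪ acceptedFrom (theRule M K0) S R V h es
      = (es.map fun f => (f, V f)).foldl (stepAcc M K0 S R) (accH M K0 S R h) := by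
  induction es generalizing h with
  | nil => simp [acceptedFrom]
  | cons e es ih =>
    have hih := ih (h ++ [(e, V e)])
    rw [accH_snoc] at hih
    simp only [List.map_cons, List.foldl_cons]
    rw [← hih, acceptedFrom_cons]
    by_cases hc : passOf M K0 S R e (V e) ∧
        M.Indep ((insert e (accH M K0 S R h) : Finset (Fin n)) : Set (Fin n))
    · have hd : theRule M K0 S R h e (V e) = true := by
        simp only [theRule, decide_eq_true_eq]
        exact hc
      rw [if_pos hd]
      have hs : stepAcc M K0 S R (accH M K0 S R h) (e, V e) = insert e (accH M K0 S R h) := by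
        unfold stepAcc
        exact if_pos hc
      rw [hs]
      ext x
      simp only [mem_union, mem_insert]
      tauto
    · have hd : ¬ theRule M K0 S R h e (V e) = true := by
        simp only [theRule, decide_eq_true_eq]
        exact hc
      rw [if_neg hd]
      have hs : stepAcc M K0 S R (accH M K0 S R h) (e, V e) = accH M K0 S R h := by
        unfold stepAcc
        exact if_neg hc
      rw [hs]

lemma accepted_eq (M : Matroid (Fin n)) (K0 : ℕ) (S V : Fin n → ℝ≥0) (R : Seed n)
    (π : Equiv.Perm (Fin n)) :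
    accepted (theRule M K0) S R V π
      = ((List.ofFn π).map fun f => (f, V f)).foldl (stepAcc M K0 S R) ∅ := by
  have := union_acceptedFrom M K0 S V R (List.ofFn π) []
  simpa [accH, accepted] using this

lemma foldl_props (M : Matroid (Fin n)) (K0 : ℕ) (S V : Fin n → ℝ≥0) (R : Seed n)
    (es : List (Fin n)) (A : Finset (Fin n)) (hA : M.Indep (A : Set (Fin n))) :
    let F := (es.map fun f => (f, V f)).foldl (stepAcc M K0 S R) A
    A ⊆ F ∧ M.Indep (F : Set (Fin n)) ∧ (∀ x ∈ F, x ∈ A ∨ passOf M K0 S R x (V x)) ∧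
      ∀ x ∈ es, passOf M K0 S R x (V x) → x ∉ F →
        ¬ M.Indep ((insert x F : Finset (Fin n)) : Set (Fin n)) := by
  induction es generalizing A with
  | nil =>
    simp only [List.map_nil, List.foldl_nil]
    exact ⟨Finset.Subset.refl _, hA, fun x hx => Or.inl hx, by simp⟩
  | cons e es ih =>
    simp only [List.map_cons, List.foldl_cons]
    set A1 := stepAcc M K0 S R A (e, V e) with hA1
    have hA1i : M.Indep (A1 : Set (Fin n)) := by
      rw [hA1]
      unfold stepAcc
      split_ifs with hc
      · exact hc.2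
      · exact hA
    have hAA1 : A ⊆ A1 := by
      rw [hA1]
      unfold stepAcc
      split_ifs with hc
      · exact Finset.subset_insert _ _
      · exact Finset.Subset.refl _
    obtain ⟨h1, h2, h3, h4⟩ := ih A1 hA1i
    set F := (es.map fun f => (f, V f)).foldl (stepAcc M K0 S R) A1 with hF
    refine ⟨hAA1.trans h1, h2, ?_, ?_⟩
    · intro x hx
      rcases h3 x hx with h | h
      · rw [hA1] at h
        unfold stepAcc at h
        split_ifs at h with hc
        · rw [Finset.mem_insert] at h
          rcases h with rfl | h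
          · exact Or.inr hc.1
          · exact Or.inl h
        · exact Or.inl h
      · exact Or.inr h
    · intro x hx hp hxF
      rw [List.mem_cons] at hx
      rcases hx with rfl | hx
      · -- x = e
        have hnot : ¬ M.Indep ((insert x A : Finset (Fin n)) : Set (Fin n)) := by
          intro hi
          apply hxF
          apply h1
          rw [hA1]
          unfold stepAcc
          rw [if_pos ⟨hp, hi⟩]
          exact Finset.mem_insert_self _ _
        intro hi
        apply hnot
        refine hi.subset ?_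
        intro y hy
        simp only [coe_insert, Set.mem_insert_iff, mem_coe] at hy ⊢
        rcases hy with rfl | hy
        · exact Or.inl rfl
        · exact Or.inr (h1 (hAA1 hy))
      · exact h4 x hx hp hxF

/-- the set of elements clearing the threshold. -/
noncomputable def passSet (M : Matroid (Fin n)) (K0 : ℕ) (S V : Fin n → ℝ≥0) (R : Seed n) :
    Finset (Fin n) :=
  univ.filter fun e => passOf M K0 S R e (V e)

lemma accepted_indep (M : Matroid (Fin n)) (K0 : ℕ) (S V : Fin n → ℝ≥0) (R : Seed n)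
    (π : Equiv.Perm (Fin n)) : M.Indep (accepted (theRule M K0) S R V π : Set (Fin n)) := by
  rw [accepted_eq]
  have h := foldl_props M K0 S V R (List.ofFn π) ∅ (by simp [M.empty_indep])
  exact h.2.1

lemma accepted_mem_maxIndep (M : Matroid (Fin n)) (K0 : ℕ) (S V : Fin n → ℝ≥0) (R : Seed n)
    (π : Equiv.Perm (Fin n)) :
    accepted (theRule M K0) S R V π ∈ maxIndep M (passSet M K0 S V R) := by
  rw [accepted_eq]
  have h := foldl_props M K0 S V R (List.ofFn π) ∅ (by simp [M.empty_indep])
  obtain ⟨_, h2, h3, h4⟩ := h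
  simp only [maxIndep, mem_filter, mem_powerset]
  refine ⟨?_, h2, ?_⟩
  · intro x hx
    rcases h3 x hx with h | h
    · simp at h
    · simpa [passSet] using h
  · intro e he hne
    refine h4 e ?_ (by simpa [passSet] using he) hne
    rw [List.mem_ofFn]
    exact ⟨π.symm e, by simp⟩

lemma worst_le_value (M : Matroid (Fin n)) (K0 : ℕ) (S V : Fin n → ℝ≥0) (R : Seed n)
    (π : Equiv.Perm (Fin n)) :
    worst M (passSet M K0 S V R) (fun e => (V e : ℝ≥0∞))
      ≤ ∑ e ∈ accepted (theRule M K0) S R V π, (V e : ℝ≥0∞) :=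
  worst_le M _ (accepted_mem_maxIndep M K0 S V R π)

lemma passSet_zero (M : Matroid (Fin n)) (K0 : ℕ) (S V : Fin n → ℝ≥0) (β : Fin n → Bool) :
    passSet M K0 S V (0, β) = topPass M K0 (ksOf S β) (kvOf V β) := by
  ext e
  rw [passSet, Finset.mem_filter, mem_topPass]
  have h : passOf M K0 S (0, β) e (V e) ↔
      e ∈ topPass M K0 (ksOf S β) (fun _ => keyOf (V e) e (!β e)) := by
    unfold passOf
    simp only [if_true]
  rw [h, mem_topPass]
  simp only [mem_univ, true_and]
  exact Iff.rfl

lemma passSet_level (M : Matroid (Fin n)) (K0 : ℕ) (S V : Fin n → ℝ≥0) (β : Fin n → Bool)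
    {k : ℕ} (hk : k ≠ 0) :
    passSet M K0 S V (k, β) = levelPass M k (ksOf S β) (kvOf V β) := by
  ext e
  rw [passSet, Finset.mem_filter, mem_levelPass]
  have h : passOf M K0 S (k, β) e (V e) ↔
      e ∈ levelPass M k (ksOf S β) (fun _ => keyOf (V e) e (!β e)) := by
    unfold passOf
    simp only [if_neg hk]
  rw [h, mem_levelPass]
  simp only [mem_univ, true_and]
  exact Iff.rfl

/-- swap the sample and the value on `t`: the sample part. -/
def swapS (t : Fin n → Bool) (S V : Fin n → ℝ≥0) (e : Fin n) : ℝ≥0 := if t e then V e else S e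

/-- swap the sample and the value on `t`: the value part. -/
def swapV (t : Fin n → Bool) (S V : Fin n → ℝ≥0) (e : Fin n) : ℝ≥0 := if t e then S e else V e

/-- flip the tie bits on `t`. -/
def xorB (t β : Fin n → Bool) (e : Fin n) : Bool := xor (t e) (β e)

lemma keyOf_ne (x y : ℝ≥0) (e : Fin n) (c : Bool) : keyOf x e c ≠ keyOf y e (!c) := by
  intro h
  have : (toLex (x, toLex (e, c)) : Key n) = toLex (y, toLex (e, !c)) := h
  have h2 := congrArg (fun k : Key n => (ofLex (ofLex k).2).2) this
  simp at h2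

lemma keyOf_elem (x : ℝ≥0) (e : Fin n) (c : Bool) :
    (ofLex (ofLex (keyOf x e c)).2).1 = e := rfl

/-- high and low keys of a pair of tokens. -/
noncomputable def hiLo (S V : Fin n → ℝ≥0) (β : Fin n → Bool) (e : Fin n) (c : Bool) : Key n :=
  if c then max (ksOf S β e) (kvOf V β e) else min (ksOf S β e) (kvOf V β e)

lemma ks_ne_kv (S V : Fin n → ℝ≥0) (β : Fin n → Bool) (e : Fin n) :
    ksOf S β e ≠ kvOf V β e := keyOf_ne _ _ _ _

lemma hiLo_lt (S V : Fin n → ℝ≥0) (β : Fin n → Bool) (e : Fin n) :
    hiLo S V β e false < hiLo S V β e true := by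
  simp only [hiLo, if_false, if_true, Bool.false_eq_true]
  exact min_lt_max.mpr (ks_ne_kv S V β e)

lemma hiLo_elem (S V : Fin n → ℝ≥0) (β : Fin n → Bool) (e : Fin n) (c : Bool) :
    (ofLex (ofLex (hiLo S V β e c)).2).1 = e := by
  simp only [hiLo]
  cases c
  · simp only [Bool.false_eq_true, if_false]
    rcases min_choice (ksOf S β e) (kvOf V β e) with h | h <;> rw [h] <;> rfl
  · simp only [if_true]
    rcases max_choice (ksOf S β e) (kvOf V β e) with h | h <;> rw [h] <;> rfl

lemma hiLo_inj (S V : Fin n → ℝ≥0) (β : Fin n → Bool) (e f : Fin n) (c d : Bool)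
    (h : hiLo S V β e c = hiLo S V β f d) : e = f ∧ c = d := by
  have h1 : e = f := by
    have := congrArg (fun k : Key n => (ofLex (ofLex k).2).1) h
    simpa [hiLo_elem] using this
  subst h1
  refine ⟨rfl, ?_⟩
  have hlt := hiLo_lt S V β e
  cases c <;> cases d <;> simp_all [lt_irrefl]

/-- pattern of coins: which token is the high one after flipping by `t`. -/
noncomputable def patt (S V : Fin n → ℝ≥0) (β t : Fin n → Bool) (e : Fin n) : Bool :=
  xor (t e) (decide (ksOf S β e < kvOf V β e))

lemma kv_swap (S V : Fin n → ℝ≥0) (β t : Fin n → Bool) (e : Fin n) :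
    kvOf (swapV t S V) (xorB t β) e = keyV (hiLo S V β) (patt S V β t) e := by
  unfold keyV
  have hne := ks_ne_kv S V β e
  by_cases ht : t e = true
  · have h1 : kvOf (swapV t S V) (xorB t β) e = ksOf S β e := by
      simp [kvOf, swapV, xorB, ksOf, ht]
    rw [h1]
    by_cases hlt : ksOf S β e < kvOf V β e
    · simp [patt, ht, hlt, hiLo, min_eq_left hlt.le]
    · have hgt : kvOf V β e ≤ ksOf S β e := not_lt.mp hlt
      simp [patt, ht, hlt, hiLo, max_eq_left hgt]
  · have ht' : t e = false := by simpa using ht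
    have h1 : kvOf (swapV t S V) (xorB t β) e = kvOf V β e := by
      simp [kvOf, swapV, xorB, ht']
    rw [h1]
    by_cases hlt : ksOf S β e < kvOf V β e
    · simp [patt, ht', hlt, hiLo, max_eq_right hlt.le]
    · have hgt : kvOf V β e ≤ ksOf S β e := not_lt.mp hlt
      simp [patt, ht', hlt, hiLo, min_eq_right hgt]

lemma ks_swap (S V : Fin n → ℝ≥0) (β t : Fin n → Bool) (e : Fin n) :
    ksOf (swapS t S V) (xorB t β) e = keyS (hiLo S V β) (patt S V β t) e := by
  unfold keyS
  have hne := ks_ne_kv S V β e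
  by_cases ht : t e = true
  · have h1 : ksOf (swapS t S V) (xorB t β) e = kvOf V β e := by
      simp [kvOf, swapS, xorB, ksOf, ht]
    rw [h1]
    by_cases hlt : ksOf S β e < kvOf V β e
    · simp [patt, ht, hlt, hiLo, max_eq_right hlt.le]
    · have hgt : kvOf V β e ≤ ksOf S β e := not_lt.mp hlt
      simp [patt, ht, hlt, hiLo, min_eq_right hgt]
  · have ht' : t e = false := by simpa using ht
    have h1 : ksOf (swapS t S V) (xorB t β) e = ksOf S β e := by
      simp [ksOf, swapS, xorB, ht']
    rw [h1]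
    by_cases hlt : ksOf S β e < kvOf V β e
    · simp [patt, ht', hlt, hiLo, min_eq_left hlt.le]
    · have hgt : kvOf V β e ≤ ksOf S β e := not_lt.mp hlt
      simp [patt, ht', hlt, hiLo, max_eq_left hgt]

/-- the total of all rules at the point `(S, V, β)`. -/
noncomputable def totAt (M : Matroid (Fin n)) (K0 r : ℕ) (S V : Fin n → ℝ≥0) (β : Fin n → Bool) :
    ℝ≥0∞ :=
  totalRule M K0 r (ksOf S β) (kvOf V β) (fun e => (V e : ℝ≥0∞))

lemma totAt_swap (M : Matroid (Fin n)) (K0 r : ℕ) (S V : Fin n → ℝ≥0) (β t : Fin n → Bool) :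
    totAt M K0 r (swapS t S V) (swapV t S V) (xorB t β)
      = totalRule M K0 r (keyS (hiLo S V β) (patt S V β t)) (keyV (hiLo S V β) (patt S V β t))
          (fun e => keyVal (keyV (hiLo S V β) (patt S V β t) e)) := by
  unfold totAt
  have h1 : ksOf (swapS t S V) (xorB t β) = keyS (hiLo S V β) (patt S V β t) :=
    funext (ks_swap S V β t)
  have h2 : kvOf (swapV t S V) (xorB t β) = keyV (hiLo S V β) (patt S V β t) :=
    funext (kv_swap S V β t)
  have h3 : (fun e => (swapV t S V e : ℝ≥0∞))
      = fun e => keyVal (keyV (hiLo S V β) (patt S V β t) e) := by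
    funext e
    rw [← kv_swap]
    simp [kvOf]
  rw [h1, h2, h3]

/-- the flip by `t` as a permutation of coin patterns -/
noncomputable def pattEquiv (S V : Fin n → ℝ≥0) (β : Fin n → Bool) :
    (Fin n → Bool) ≃ (Fin n → Bool) where
  toFun t := patt S V β t
  invFun b := fun e => xor (b e) (decide (ksOf S β e < kvOf V β e))
  left_inv t := by
    funext e
    simp [patt]
  right_inv b := by
    funext e
    simp [patt]

lemma opt_le_sum (M : Matroid (Fin n)) (S V : Fin n → ℝ≥0) (β : Fin n → Bool) :
    ∃ I : Finset (Fin n), M.Indep (I : Set (Fin n)) ∧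
      (optM M V : ℝ≥0∞) ≤ ∑ e ∈ I, keyVal (hiLo S V β e true) := by
  have hne : (Finset.univ.filter
      (fun I : Finset (Fin n) => M.Indep (I : Set (Fin n)))).Nonempty :=
    ⟨∅, by simp [M.empty_indep]⟩
  obtain ⟨I, hI, hIe⟩ := Finset.exists_mem_eq_sup _ hne (fun I => ∑ e ∈ I, V e)
  simp only [mem_filter, mem_univ, true_and] at hI
  refine ⟨I, hI, ?_⟩
  have h1 : optM M V = ∑ e ∈ I, V e := by
    unfold optM
    convert hIe
  rw [h1]
  push_cast
  refine Finset.sum_le_sum fun e _ => ?_
  have : keyVal (kvOf V β e) ≤ keyVal (hiLo S V β e true) := by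
    apply keyVal_mono
    simp [hiLo]
  simpa [kvOf] using this

/-- the pointwise inequality over the orbit of `(S, V, β)`. -/
theorem orbit_bound (M : Matroid (Fin n)) {K0 g r : ℕ} (hK0 : 1 ≤ K0) (hg : 2 ≤ g)
    (hgirth : ∀ I : Finset (Fin n), I.card < g → (∀ e ∈ I, M.Indep ({e} : Set (Fin n))) →
      M.Indep (I : Set (Fin n)))
    (hcase : K0 = 1 ∨ 4 * K0 ≤ g)
    (hr : ∀ I : Finset (Fin n), M.Indep (I : Set (Fin n)) → I.card ≤ r)
    (S V : Fin n → ℝ≥0) (β : Fin n → Bool) :
    (2 ^ n : ℝ≥0∞) * (optM M V : ℝ≥0∞) ≤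
      16 * ∑ t : Fin n → Bool, totAt M K0 r (swapS t S V) (swapV t S V) (xorB t β) := by
  obtain ⟨I, hI, hopt⟩ := opt_le_sum M S V β
  have h1 := total_bound M (hiLo S V β) (hiLo_inj S V β) (hiLo_lt S V β) keyVal keyVal_mono
    hK0 hg hgirth hcase hr hI
  have h2 : ∑ t : Fin n → Bool, totAt M K0 r (swapS t S V) (swapV t S V) (xorB t β)
      = ∑ b : Fin n → Bool, totalRule M K0 r (keyS (hiLo S V β) b) (keyV (hiLo S V β) b)
          (fun e => keyVal (keyV (hiLo S V β) b e)) := by
    simp_rw [totAt_swap]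
    exact Equiv.sum_comp (pattEquiv S V β) (fun b => totalRule M K0 r (keyS (hiLo S V β) b)
      (keyV (hiLo S V β) b) (fun e => keyVal (keyV (hiLo S V β) b e)))
  rw [h2]
  refine le_trans ?_ h1
  simp only [Fintype.card_fin]
  gcongr

end Vale.Agent.P331
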