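import Vale.Agent.P331.Rule

/-!
# Measurability of the rule (P331)
-/

open MeasureTheory
open scoped ENNReal NNReal
open Finset

set_option linter.unusedSectionVars false
set_option linter.unusedSimpArgs false
set_option linter.unusedVariables false

namespace Vale.Agent.P331

open Classical

variable {n : ℕ}

section
variable {Y : Type} [MeasurableSpace Y]

lemma measurableSet_keyOf_le' {x y : Y → ℝ≥0} (hx : Measurable x)
    (hy : Measurable y) (e f : Fin n) (c d : Bool) :
    MeasurableSet {a | keyOf (x a) e c ≤ keyOf (y a) f d} := by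
  have hset : {a | keyOf (x a) e c ≤ keyOf (y a) f d}
      = {a | x a < y a} ∪ ({a | x a = y a} ∩ {_a | toLex (e, c) ≤ toLex (f, d)}) := by
    ext a
    simp only [Set.mem_ofPred_eq, Set.mem_union, Set.mem_inter_iff, keyOf]
    exact Prod.Lex.toLex_le_toLex
  rw [hset]
  exact (measurableSet_lt hx hy).union
    ((measurableSet_eq_fun hx hy).inter (MeasurableSet.const _))

/-- comparison vector of an arriving token with the sample. -/
noncomputable def cmpVec (s : Y → Fin n → ℝ≥0) (w : Y → ℝ≥0) (β : Fin n → Bool) (f : Fin n)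
    (y : Y) (g : Fin n) : Bool :=
  decide (keyOf (w y) f (!β f) ≤ keyOf (s y g) g (β g))

lemma measurable_cmpVec {s : Y → Fin n → ℝ≥0} {w : Y → ℝ≥0} (hs : Measurable s)
    (hw : Measurable w) (β : Fin n → Bool) (f : Fin n) : Measurable (cmpVec s w β f) := by
  refine measurable_pi_lambda _ fun g => measurable_to_bool ?_
  have : (fun y => cmpVec s w β f y g) ⁻¹' {true}
      = {y | keyOf (w y) f (!β f) ≤ keyOf (s y g) g (β g)} := by
    ext y
    simp only [Set.mem_preimage, Set.mem_singleton_iff, cmpVec, Set.mem_ofPred_eq]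
    exact decide_eq_true_iff
  rw [this]
  exact measurableSet_keyOf_le' hw ((measurable_pi_apply g).comp hs) f g _ _

lemma measurableSet_passOf (M : Matroid (Fin n)) (K0 : ℕ) {s : Y → Fin n → ℝ≥0} {w : Y → ℝ≥0}
    (hs : Measurable s) (hw : Measurable w) (R : Seed n) (f : Fin n) :
    MeasurableSet {y | passOf M K0 (s y) R f (w y)} := by
  have hc := measurable_cmpVec hs hw R.2 f
  by_cases hR : R.1 = 0
  · have : {y | passOf M K0 (s y) R f (w y)} = cmpVec s w R.2 f ⁻¹'
        {c | f ∈ nonloops M ∧ ((nonloops M).filter fun g => c g = true).card < K0} := by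
      ext y
      simp only [Set.mem_ofPred_eq, Set.mem_preimage, passOf, if_pos hR]
      rw [mem_topPass]
      have h : ((nonloops M).filter fun g => keyOf (w y) f (!R.2 f) ≤ ksOf (s y) R.2 g)
          = (nonloops M).filter fun g => cmpVec s w R.2 f y g = true := by
        ext g
        rw [mem_filter, mem_filter]
        simp only [cmpVec, ksOf, decide_eq_true_eq]
      rw [h]
    rw [this]
    exact hc (MeasurableSet.of_discrete)
  · have : {y | passOf M K0 (s y) R f (w y)} = cmpVec s w R.2 f ⁻¹'
        {c | rkF M (univ.filter fun g => c g = true) < R.1} := by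
      ext y
      simp only [Set.mem_ofPred_eq, Set.mem_preimage, passOf, if_neg hR]
      rw [mem_levelPass]
      have h : (univ.filter fun g => keyOf (w y) f (!R.2 f) ≤ ksOf (s y) R.2 g)
          = univ.filter fun g => cmpVec s w R.2 f y g = true := by
        ext g
        rw [mem_filter, mem_filter]
        simp only [cmpVec, ksOf, decide_eq_true_eq]
      rw [h]
    rw [this]
    exact hc (MeasurableSet.of_discrete)

lemma measurable_foldl (M : Matroid (Fin n)) (K0 : ℕ) {s : Y → Fin n → ℝ≥0} (hs : Measurable s)
    {V : Y → Fin n → ℝ≥0} (hV : Measurable V) (R : Seed n) (es : List (Fin n)) :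
    ∀ A0 : Y → Finset (Fin n), Measurable A0 → Measurable fun y =>
      (es.map fun f => (f, V y f)).foldl (stepAcc M K0 (s y) R) (A0 y) := by
  induction es with
  | nil =>
    intro A0 hA0
    simpa using hA0
  | cons e es ih =>
    intro A0 hA0
    simp only [List.map_cons, List.foldl_cons]
    refine ih (fun y => stepAcc M K0 (s y) R (A0 y) (e, V y e)) ?_
    have hH : Measurable fun q : Y × Finset (Fin n) =>
        stepAcc M K0 (s q.1) R q.2 (e, V q.1 e) := by
      refine measurable_from_prod_countable_left fun A => ?_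
      simp only [stepAcc]
      have hset := (measurableSet_passOf M K0 hs ((measurable_pi_apply e).comp hV) R e).inter
        (MeasurableSet.const (M.Indep ((insert e A : Finset (Fin n)) : Set (Fin n))))
      exact Measurable.ite hset measurable_const measurable_const
    have h3 : Measurable fun y : Y => (y, A0 y) := measurable_id.prodMk hA0
    have h4 := hH.comp h3
    simpa only [Function.comp_def] using h4

end

/-- the rule is a measurable function of the sample, the seed and the values, for every fixed
pattern of arrivals. -/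
theorem theRule_measurable (M : Matroid (Fin n)) (K0 : ℕ) (es : List (Fin n)) (e : Fin n) :
    Measurable fun x : (Fin n → ℝ≥0) × Seed n × (Fin n → ℝ≥0) × ℝ≥0 =>
      theRule M K0 x.1 x.2.1 (es.map fun f => (f, x.2.2.1 f)) e x.2.2.2 := by
  have hfixed : ∀ R : Seed n, Measurable fun y : (Fin n → ℝ≥0) × (Fin n → ℝ≥0) × ℝ≥0 =>
      theRule M K0 y.1 R (es.map fun f => (f, y.2.1 f)) e y.2.2 := by
    intro R
    refine measurable_to_bool ?_
    have hacc : Measurable fun y : (Fin n → ℝ≥0) × (Fin n → ℝ≥0) × ℝ≥0 =>
        accH M K0 y.1 R (es.map fun f => (f, y.2.1 f)) :=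
      measurable_foldl (Y := (Fin n → ℝ≥0) × (Fin n → ℝ≥0) × ℝ≥0) (V := fun y => y.2.1)
        M K0 measurable_fst (measurable_fst.comp measurable_snd) R es
        (fun _ => ∅) measurable_const
    have hset : (fun y : (Fin n → ℝ≥0) × (Fin n → ℝ≥0) × ℝ≥0 =>
        theRule M K0 y.1 R (es.map fun f => (f, y.2.1 f)) e y.2.2) ⁻¹' {true}
        = {y | passOf M K0 y.1 R e y.2.2} ∩
          (fun y : (Fin n → ℝ≥0) × (Fin n → ℝ≥0) × ℝ≥0 =>
            accH M K0 y.1 R (es.map fun f => (f, y.2.1 f))) ⁻¹'
            {A | M.Indep ((insert e A : Finset (Fin n)) : Set (Fin n))} := by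
      ext y
      simp only [Set.mem_preimage, Set.mem_singleton_iff, theRule, decide_eq_true_eq,
        Set.mem_inter_iff, Set.mem_ofPred_eq]
    rw [hset]
    refine MeasurableSet.inter ?_ (hacc MeasurableSet.of_discrete)
    exact measurableSet_passOf M K0 measurable_fst (measurable_snd.comp measurable_snd) R e
  have hjoint : Measurable fun q : ((Fin n → ℝ≥0) × (Fin n → ℝ≥0) × ℝ≥0) × Seed n =>
      theRule M K0 q.1.1 q.2 (es.map fun f => (f, q.1.2.1 f)) e q.1.2.2 :=
    measurable_from_prod_countable_left hfixed
  have hre : Measurable fun x : (Fin n → ℝ≥0) × Seed n × (Fin n → ℝ≥0) × ℝ≥0 =>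
      (((x.1, x.2.2), x.2.1) : ((Fin n → ℝ≥0) × (Fin n → ℝ≥0) × ℝ≥0) × Seed n) :=
    (measurable_fst.prodMk (measurable_snd.comp measurable_snd)).prodMk
      (measurable_fst.comp measurable_snd)
  exact hjoint.comp hre

end Vale.Agent.P331
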