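import Vale.Agent.P331.Rule

/-!
# Symmetrization over the swaps of samples and values (P331)
-/

open MeasureTheory
open scoped ENNReal NNReal
open Finset

set_option linter.unusedSectionVars false
set_option linter.unusedSimpArgs false
set_option linter.unusedVariables false

namespace Vale.Agent.P331

open Classical

variable {n : ℕ}

/-- swap samples and values on `t`. -/
def swapP (t : Fin n → Bool) (p : (Fin n → ℝ≥0) × (Fin n → ℝ≥0)) :
    (Fin n → ℝ≥0) × (Fin n → ℝ≥0) :=
  (swapS t p.1 p.2, swapV t p.1 p.2)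

/-- the coordinate swap of a pair. -/
def swapPair (c : Bool) (w : ℝ≥0 × ℝ≥0) : ℝ≥0 × ℝ≥0 := if c then w.swap else w

lemma swapPair_measurable (c : Bool) : Measurable (swapPair c) := by
  cases c
  · exact measurable_id
  · exact measurable_swap

lemma swapPair_map (c : Bool) (ν : Measure ℝ≥0) [SFinite ν] :
    (ν.prod ν).map (swapPair c) = ν.prod ν := by
  cases c
  · have : swapPair false = id := by
      funext w; simp [swapPair]
    rw [this, Measure.map_id]
  · have : swapPair true = Prod.swap := by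
      funext w; simp [swapPair]
    rw [this, Measure.prod_swap]

lemma swapP_mp (D : Fin n → Measure ℝ≥0) [∀ e, IsProbabilityMeasure (D e)]
    (t : Fin n → Bool) :
    MeasurePreserving (swapP t) ((Measure.pi D).prod (Measure.pi D))
      ((Measure.pi D).prod (Measure.pi D)) := by
  have hφ := measurePreserving_arrowProdEquivProdArrow ℝ≥0 ℝ≥0 (Fin n) D D
  set φ := MeasurableEquiv.arrowProdEquivProdArrow ℝ≥0 ℝ≥0 (Fin n) with hφdef
  have hθ : MeasurePreserving (fun (w : Fin n → ℝ≥0 × ℝ≥0) (e : Fin n) => swapPair (t e) (w e))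
      (Measure.pi fun e => (D e).prod (D e)) (Measure.pi fun e => (D e).prod (D e)) := by
    refine ⟨measurable_pi_lambda _ fun e =>
      (swapPair_measurable (t e)).comp (measurable_pi_apply e), ?_⟩
    have hfin : ∀ e, SigmaFinite (((D e).prod (D e)).map (swapPair (t e))) := by
      intro e
      rw [swapPair_map]
      infer_instance
    rw [Measure.pi_map_pi (fun e => (swapPair_measurable (t e)).aemeasurable)]
    congr 1
    funext e
    exact swapPair_map (t e) (D e)
  have hcomp := hφ.comp (hθ.comp (MeasurePreserving.symm φ hφ))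
  convert hcomp using 1
  funext p
  refine Prod.ext ?_ ?_
  · funext e
    cases ht : t e <;> simp [swapP, swapS, swapPair, ht, φ, MeasurableEquiv.arrowProdEquivProdArrow,
      Equiv.arrowProdEquivProdArrow]
  · funext e
    cases ht : t e <;> simp [swapP, swapV, swapPair, ht, φ, MeasurableEquiv.arrowProdEquivProdArrow,
      Equiv.arrowProdEquivProdArrow]

/-- comparison data. -/
noncomputable def cmpOf (β : Fin n → Bool) (p : (Fin n → ℝ≥0) × (Fin n → ℝ≥0))
    (e f : Fin n) : Bool :=
  decide (kvOf p.2 β e ≤ ksOf p.1 β f)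

lemma measurableSet_keyOf_le {α : Type} [MeasurableSpace α] {x y : α → ℝ≥0} (hx : Measurable x)
    (hy : Measurable y) (e f : Fin n) (c d : Bool) :
    MeasurableSet {a | keyOf (x a) e c ≤ keyOf (y a) f d} := by
  have hset : {a | keyOf (x a) e c ≤ keyOf (y a) f d}
      = {a | x a < y a} ∪ ({a | x a = y a} ∩ {_a | toLex (e, c) ≤ toLex (f, d)}) := by
    ext a
    simp only [Set.mem_ofPred_eq, Set.mem_union, Set.mem_inter_iff, keyOf]
    exact Prod.Lex.toLex_le_toLex
  rw [hset]
  exact (measurableSet_lt hx hy).union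
    ((measurableSet_eq_fun hx hy).inter (MeasurableSet.const _))

lemma measurable_cmpOf (β : Fin n → Bool) : Measurable (cmpOf β) := by
  refine measurable_pi_lambda _ fun e => measurable_pi_lambda _ fun f => ?_
  refine measurable_to_bool ?_
  have : (fun p => cmpOf β p e f) ⁻¹' {true}
      = {p : (Fin n → ℝ≥0) × (Fin n → ℝ≥0) | keyOf (p.2 e) e (!β e) ≤ keyOf (p.1 f) f (β f)} := by
    ext p
    simp only [Set.mem_preimage, Set.mem_singleton_iff, cmpOf, Set.mem_ofPred_eq]
    exact decide_eq_true_iff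
  rw [this]
  exact measurableSet_keyOf_le ((measurable_pi_apply e).comp measurable_snd)
    ((measurable_pi_apply f).comp measurable_fst) e f _ _

lemma measurable_inf_sum (A : Finset (Finset (Fin n))) :
    Measurable fun p : (Fin n → ℝ≥0) × (Fin n → ℝ≥0) =>
      A.inf (fun B => ∑ e ∈ B, (p.2 e : ℝ≥0∞)) := by
  induction A using Finset.induction_on with
  | empty => simp
  | insert a s ha ih =>
    simp only [Finset.inf_insert]
    refine Measurable.inf ?_ ih
    refine Finset.measurable_sum _ fun e _ => ?_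
    exact measurable_coe_nnreal_ennreal.comp ((measurable_pi_apply e).comp measurable_snd)

lemma measurable_worst_sel (M : Matroid (Fin n)) (sel : (Fin n → Fin n → Bool) → Finset (Fin n))
    (c : (Fin n → ℝ≥0) × (Fin n → ℝ≥0) → (Fin n → Fin n → Bool)) (hc : Measurable c) :
    Measurable fun p : (Fin n → ℝ≥0) × (Fin n → ℝ≥0) =>
      worst M (sel (c p)) (fun e => (p.2 e : ℝ≥0∞)) := by
  have h0 : ∀ c : Fin n → Fin n → Bool, Measurable fun p : (Fin n → ℝ≥0) × (Fin n → ℝ≥0) =>
      worst M (sel c) (fun e => (p.2 e : ℝ≥0∞)) := by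
    intro c
    unfold worst
    exact measurable_inf_sum (maxIndep M (sel c))
  have h1 : Measurable fun q : ((Fin n → ℝ≥0) × (Fin n → ℝ≥0)) × (Fin n → Fin n → Bool) =>
      worst M (sel q.2) (fun e => (q.1.2 e : ℝ≥0∞)) :=
    measurable_from_prod_countable_left (fun c => h0 c)
  have h3 : Measurable fun p : (Fin n → ℝ≥0) × (Fin n → ℝ≥0) => (p, c p) :=
    measurable_id.prodMk hc
  exact h1.comp h3

/-- level selection from comparison data. -/
noncomputable def lvlSel (M : Matroid (Fin n)) (k : ℕ) (c : Fin n → Fin n → Bool) : Finset (Fin n) :=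
  univ.filter fun e => rkF M (univ.filter fun f => c e f = true) < k

/-- top selection from comparison data. -/
noncomputable def topSel (M : Matroid (Fin n)) (K0 : ℕ) (c : Fin n → Fin n → Bool) :
    Finset (Fin n) :=
  (nonloops M).filter fun e => ((nonloops M).filter fun f => c e f = true).card < K0

lemma levelPass_cmp (M : Matroid (Fin n)) (k : ℕ) (β : Fin n → Bool)
    (p : (Fin n → ℝ≥0) × (Fin n → ℝ≥0)) :
    levelPass M k (ksOf p.1 β) (kvOf p.2 β) = lvlSel M k (cmpOf β p) := by
  ext e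
  rw [mem_levelPass]
  simp only [lvlSel, mem_filter, mem_univ, true_and]
  have : (univ.filter fun f => kvOf p.2 β e ≤ ksOf p.1 β f)
      = univ.filter fun f => cmpOf β p e f = true := by
    ext f
    simp [cmpOf]
  rw [this]

lemma topPass_cmp (M : Matroid (Fin n)) (K0 : ℕ) (β : Fin n → Bool)
    (p : (Fin n → ℝ≥0) × (Fin n → ℝ≥0)) :
    topPass M K0 (ksOf p.1 β) (kvOf p.2 β) = topSel M K0 (cmpOf β p) := by
  ext e
  rw [mem_topPass]
  simp only [topSel, mem_filter]
  have : ((nonloops M).filter fun f => kvOf p.2 β e ≤ ksOf p.1 β f)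
      = (nonloops M).filter fun f => cmpOf β p e f = true := by
    ext f
    simp [cmpOf]
  rw [this]

lemma measurable_worst_level (M : Matroid (Fin n)) (k : ℕ) (β : Fin n → Bool) :
    Measurable fun p : (Fin n → ℝ≥0) × (Fin n → ℝ≥0) =>
      worst M (levelPass M k (ksOf p.1 β) (kvOf p.2 β)) (fun e => (p.2 e : ℝ≥0∞)) := by
  have : (fun p : (Fin n → ℝ≥0) × (Fin n → ℝ≥0) =>
      worst M (levelPass M k (ksOf p.1 β) (kvOf p.2 β)) (fun e => (p.2 e : ℝ≥0∞)))
      = fun p => worst M (lvlSel M k (cmpOf β p)) (fun e => (p.2 e : ℝ≥0∞)) := by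
    funext p
    rw [levelPass_cmp]
  rw [this]
  exact measurable_worst_sel M (lvlSel M k) (cmpOf β) (measurable_cmpOf β)

lemma measurable_worst_top (M : Matroid (Fin n)) (K0 : ℕ) (β : Fin n → Bool) :
    Measurable fun p : (Fin n → ℝ≥0) × (Fin n → ℝ≥0) =>
      worst M (topPass M K0 (ksOf p.1 β) (kvOf p.2 β)) (fun e => (p.2 e : ℝ≥0∞)) := by
  have : (fun p : (Fin n → ℝ≥0) × (Fin n → ℝ≥0) =>
      worst M (topPass M K0 (ksOf p.1 β) (kvOf p.2 β)) (fun e => (p.2 e : ℝ≥0∞)))
      = fun p => worst M (topSel M K0 (cmpOf β p)) (fun e => (p.2 e : ℝ≥0∞)) := by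
    funext p
    rw [topPass_cmp]
  rw [this]
  exact measurable_worst_sel M (topSel M K0) (cmpOf β) (measurable_cmpOf β)

lemma measurable_totAt (M : Matroid (Fin n)) (K0 r : ℕ) (β : Fin n → Bool) :
    Measurable fun p : (Fin n → ℝ≥0) × (Fin n → ℝ≥0) => totAt M K0 r p.1 p.2 β := by
  unfold totAt totalRule
  refine (measurable_worst_top M K0 β).add ?_
  refine Finset.measurable_sum _ fun k _ => ?_
  exact (measurable_worst_level M k β).const_mul _

lemma measurable_optM (M : Matroid (Fin n)) :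
    Measurable fun V : Fin n → ℝ≥0 => (optM M V : ℝ≥0∞) := by
  refine measurable_coe_nnreal_ennreal.comp ?_
  unfold optM
  generalize (Finset.univ.filter
    (fun I : Finset (Fin n) => M.Indep (I : Set (Fin n)))) = A
  induction A using Finset.induction_on with
  | empty => simp
  | insert a s ha ih =>
    simp only [Finset.sup_insert]
    refine Measurable.sup ?_ ih
    exact Finset.measurable_sum _ fun e _ => measurable_pi_apply e

/-- flipping tie bits as a permutation of the tie bits. -/
def xorEquiv (t : Fin n → Bool) : (Fin n → Bool) ≃ (Fin n → Bool) where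
  toFun β := xorB t β
  invFun β := xorB t β
  left_inv β := by
    funext e
    simp [xorB]
  right_inv β := by
    funext e
    simp [xorB]

/-- abstract form of the symmetrization. -/
lemma sym_abstract {P : Type} [MeasurableSpace P] (μ : Measure P) {B : Type} [Fintype B]
    (T : P → B → ℝ≥0∞) (o : P → ℝ≥0∞) (swp : B → P → B → ℝ≥0∞)
    (hTm : Measurable fun p => ∑ β, T p β) (hom : Measurable o)
    (hsm : ∀ t, Measurable fun p => ∑ β, swp t p β)
    (hsw : ∀ t, ∫⁻ p, ∑ β, T p β ∂μ = ∫⁻ p, ∑ β, swp t p β ∂μ)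
    (N : ℝ≥0∞) (hN : N = (Fintype.card B : ℝ≥0∞)) (hN0 : N ≠ 0) (hNt : N ≠ ⊤)
    (horb : ∀ p β, N * o p ≤ 16 * ∑ t, swp t p β) :
    N * ∫⁻ p, o p ∂μ ≤ 16 * ∫⁻ p, ∑ β, T p β ∂μ := by
  have hconst : ∀ c : ℝ≥0∞, ∑ _β : B, c = N * c := by
    intro c
    rw [Finset.sum_const, Finset.card_univ, nsmul_eq_mul, hN]
  have hmain : N * (N * ∫⁻ p, o p ∂μ) ≤ N * (16 * ∫⁻ p, ∑ β, T p β ∂μ) := by
    calc N * (N * ∫⁻ p, o p ∂μ)
        = ∫⁻ p, ∑ _β : B, (N * o p) ∂μ := by
          rw [← lintegral_const_mul _ hom, ← lintegral_const_mul _ (hom.const_mul _)]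
          refine lintegral_congr fun p => ?_
          rw [hconst]
      _ ≤ ∫⁻ p, ∑ β : B, (16 * ∑ t, swp t p β) ∂μ := by
          refine lintegral_mono fun p => ?_
          exact Finset.sum_le_sum fun β _ => horb p β
      _ = 16 * ∑ t, ∫⁻ p, ∑ β, swp t p β ∂μ := by
          rw [← lintegral_finsetSum _ fun t _ => hsm t,
            ← lintegral_const_mul _ (Finset.measurable_sum _ fun t _ => hsm t)]
          refine lintegral_congr fun p => ?_
          rw [← Finset.mul_sum, Finset.sum_comm]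
      _ = 16 * ∑ _t : B, ∫⁻ p, ∑ β, T p β ∂μ := by
          congr 1
          exact Finset.sum_congr rfl fun t _ => (hsw t).symm
      _ = N * (16 * ∫⁻ p, ∑ β, T p β ∂μ) := by
          rw [hconst]
          ring
  exact (ENNReal.mul_le_mul_iff_right hN0 hNt).mp hmain

/-- the symmetrization inequality. -/
theorem sym_bound (M : Matroid (Fin n)) {K0 g r : ℕ} (hK0 : 1 ≤ K0) (hg : 2 ≤ g)
    (hgirth : ∀ I : Finset (Fin n), I.card < g → (∀ e ∈ I, M.Indep ({e} : Set (Fin n))) →
      M.Indep (I : Set (Fin n)))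
    (hcase : K0 = 1 ∨ 4 * K0 ≤ g)
    (hr : ∀ I : Finset (Fin n), M.Indep (I : Set (Fin n)) → I.card ≤ r)
    (D : Fin n → Measure ℝ≥0) [∀ e, IsProbabilityMeasure (D e)] :
    (2 ^ n : ℝ≥0∞) * ∫⁻ p, (optM M p.2 : ℝ≥0∞) ∂((Measure.pi D).prod (Measure.pi D)) ≤
      16 * ∫⁻ p, ∑ β : Fin n → Bool, totAt M K0 r p.1 p.2 β
        ∂((Measure.pi D).prod (Measure.pi D)) := by
  have hFm : Measurable fun p : (Fin n → ℝ≥0) × (Fin n → ℝ≥0) =>
      ∑ β : Fin n → Bool, totAt M K0 r p.1 p.2 β :=
    Finset.measurable_sum _ fun β _ => measurable_totAt M K0 r β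
  refine sym_abstract ((Measure.pi D).prod (Measure.pi D))
    (fun p β => totAt M K0 r p.1 p.2 β) (fun p => (optM M p.2 : ℝ≥0∞))
    (fun t p β => totAt M K0 r (swapS t p.1 p.2) (swapV t p.1 p.2) (xorB t β))
    hFm ((measurable_optM M).comp measurable_snd) ?_ ?_ (2 ^ n) ?_ (by simp) (by simp) ?_
  · intro t
    refine Finset.measurable_sum _ fun β _ => ?_
    have h1 := (measurable_totAt M K0 r (xorB t β)).comp (swapP_mp D t).measurable
    have h2 : ((fun p : (Fin n → ℝ≥0) × (Fin n → ℝ≥0) => totAt M K0 r p.1 p.2 (xorB t β)) ∘ swapP t)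
        = fun p => totAt M K0 r (swapS t p.1 p.2) (swapV t p.1 p.2) (xorB t β) := by
      funext p
      simp only [Function.comp, swapP]
    rw [h2] at h1
    exact h1
  · intro t
    have h := (swapP_mp D t).lintegral_comp hFm
    rw [← h]
    refine lintegral_congr fun p => ?_
    simp only [swapP]
    exact (Equiv.sum_comp (xorEquiv t)
      (fun β => totAt M K0 r (swapS t p.1 p.2) (swapV t p.1 p.2) β)).symm
  · simp
  · intro p β
    exact orbit_bound M hK0 hg hgirth hcase hr p.1 p.2 β

end Vale.Agent.P331
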