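import Vale.Agent.P331.Level

/-!
# Combining the level rules (P331)
-/

open scoped ENNReal
open Finset

set_option linter.unusedSectionVars false
set_option linter.unusedSimpArgs false
set_option linter.unusedVariables false

namespace Vale.Agent.P331

variable {E : Type} [Fintype E] [DecidableEq E] {κ : Type} [LinearOrder κ]

open Classical

/-- sorted decreasing sequence of the values of a finite set, with its initial segments. -/
lemma exists_sorted (a : E → κ) (val : κ → ℝ≥0∞) (hval : Monotone val) (I : Finset E) :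
    ∃ u : ℕ → ℝ≥0∞, Antitone u ∧ (∀ i, I.card ≤ i → u i = 0) ∧
      (∀ i, i < I.card → ∃ x ∈ I, u i = val (a x)) ∧
      ∀ j, j ≤ I.card → ∃ Z, Z ⊆ I ∧ Z.card = j ∧ (∀ e ∈ Z, ∀ i, j ≤ i + 1 → u i ≤ val (a e)) ∧
        ∑ i ∈ range j, u i = ∑ e ∈ Z, val (a e) := by
  induction I using Finset.induction_on_min_value a with
  | empty =>
    refine ⟨fun _ => 0, fun _ _ _ => le_rfl, by simp, by simp, ?_⟩
    intro j hj
    refine ⟨∅, by simp, ?_, by simp, by simp⟩
    simp at hj
    simp [hj]
  | insert m s hm hmin ih =>
    obtain ⟨u, hanti, hzero, hval', hpre⟩ := ih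
    set c := s.card with hc
    have hcard : (insert m s).card = c + 1 := by
      rw [Finset.card_insert_of_notMem hm]
    have hmle : ∀ i, i < c → val (a m) ≤ u i := by
      intro i hi
      obtain ⟨x, hx, hxe⟩ := hval' i hi
      rw [hxe]
      exact hval (hmin x hx)
    refine ⟨fun i => if i = c then val (a m) else u i, ?_, ?_, ?_, ?_⟩
    · intro i j hij
      show (if j = c then val (a m) else u j) ≤ (if i = c then val (a m) else u i)
      by_cases hjc : j = c
      · rw [if_pos hjc]
        by_cases hic : i = c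
        · rw [if_pos hic]
        · rw [if_neg hic]
          exact hmle i (by omega)
      · rw [if_neg hjc]
        by_cases hic : i = c
        · rw [if_pos hic, hzero j (by omega)]
          exact zero_le
        · rw [if_neg hic]
          exact hanti hij
    · intro i hi
      rw [hcard] at hi
      have : i ≠ c := by omega
      simp only [if_neg this]
      exact hzero i (by omega)
    · intro i hi
      rw [hcard] at hi
      by_cases hic : i = c
      · exact ⟨m, Finset.mem_insert_self _ _, by simp [hic]⟩
      · obtain ⟨x, hx, hxe⟩ := hval' i (by omega)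
        exact ⟨x, Finset.mem_insert_of_mem hx, by simp [hic, hxe]⟩
    · intro j hj
      rw [hcard] at hj
      by_cases hjc : j ≤ c
      · obtain ⟨Z, hZs, hZc, hZu, hZsum⟩ := hpre j hjc
        refine ⟨Z, hZs.trans (Finset.subset_insert _ _), hZc, ?_, ?_⟩
        · intro e he i hi
          by_cases hic : i = c
          · simp only [if_pos hic]
            exact hval (hmin e (hZs he))
          · simp only [if_neg hic]
            exact hZu e he i hi
        · rw [← hZsum]
          refine Finset.sum_congr rfl fun i hi => ?_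
          have : i ≠ c := by
            have := Finset.mem_range.mp hi
            omega
          simp [this]
      · have hj' : j = c + 1 := by omega
        subst hj'
        obtain ⟨Z, hZs, hZc, hZu, hZsum⟩ := hpre c le_rfl
        have hZeq : Z = s := Finset.eq_of_subset_of_card_le hZs (by omega)
        subst hZeq
        refine ⟨insert m Z, Finset.Subset.refl _, hcard, ?_, ?_⟩
        · intro e he i hi
          by_cases hic : i = c
          · simp only [if_pos hic]
            rw [Finset.mem_insert] at he
            rcases he with rfl | he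
            · exact le_rfl
            · exact hval (hmin e he)
          · simp only [if_neg hic]
            rw [hzero i (by omega)]
            exact zero_le
        · rw [Finset.sum_range_succ, Finset.sum_insert hm, ← hZsum]
          simp only [if_true]
          rw [add_comm]
          congr 1
          refine Finset.sum_congr rfl fun i hi => ?_
          have : i ≠ c := by
            have := Finset.mem_range.mp hi
            omega
          simp [this]

lemma sum_range_four_mul_le (u : ℕ → ℝ≥0∞) (hu : Antitone u) (K : ℕ) :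
    ∑ i ∈ range (4 * K), u i ≤ 4 * ∑ i ∈ range K, u i := by
  induction K with
  | zero => simp
  | succ K ih =>
    have hstep : 4 * (K + 1) = 4 * K + 1 + 1 + 1 + 1 := by ring
    rw [hstep, Finset.sum_range_succ, Finset.sum_range_succ, Finset.sum_range_succ,
      Finset.sum_range_succ, Finset.sum_range_succ, mul_add]
    have h0 : u (4 * K) ≤ u K := hu (by omega)
    have h1 : u (4 * K + 1) ≤ u K := hu (by omega)
    have h2 : u (4 * K + 1 + 1) ≤ u K := hu (by omega)
    have h3 : u (4 * K + 1 + 1 + 1) ≤ u K := hu (by omega)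
    calc _ ≤ 4 * ∑ i ∈ range K, u i + u K + u K + u K + u K := by gcongr
      _ = _ := by ring

lemma sum_le_four (u : ℕ → ℝ≥0∞) (hu : Antitone u) (r K0 : ℕ) (hK0 : 1 ≤ K0)
    (hzero : ∀ i, r ≤ i → u i = 0) :
    ∑ i ∈ range r, u i ≤
      4 * (∑ i ∈ range K0, u i + ∑ k ∈ Finset.Icc K0 (r / 4), u (4 * k - 1)) := by
  have hgen : ∀ m : ℕ, ∑ i ∈ range (4 * (m + 1)), u i ≤
      4 * (∑ i ∈ range K0, u i + ∑ k ∈ Finset.Icc K0 m, u (4 * k - 1)) := by
    intro m
    induction m with
    | zero =>
      have h0 : ∑ i ∈ range (4 * (0 + 1)), u i ≤ ∑ i ∈ range (4 * K0), u i :=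
        Finset.sum_le_sum_of_subset (by
          intro x hx
          simp only [mem_range] at hx ⊢
          omega)
      refine h0.trans ((sum_range_four_mul_le u hu K0).trans ?_)
      gcongr
      exact le_self_add
    | succ m ih =>
      by_cases hm : K0 ≤ m + 1
      · have hIcc : Finset.Icc K0 (m + 1) = insert (m + 1) (Finset.Icc K0 m) := by
          ext x
          simp only [mem_Icc, mem_insert]
          omega
        rw [hIcc, Finset.sum_insert (by simp)]
        have hstep : 4 * (m + 1 + 1) = 4 * (m + 1) + 1 + 1 + 1 + 1 := by ring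
        have hsum : ∑ i ∈ range (4 * (m + 1 + 1)), u i = ∑ i ∈ range (4 * (m + 1)), u i
            + u (4 * (m + 1)) + u (4 * (m + 1) + 1) + u (4 * (m + 1) + 1 + 1)
            + u (4 * (m + 1) + 1 + 1 + 1) := by
          rw [hstep, Finset.sum_range_succ, Finset.sum_range_succ, Finset.sum_range_succ,
            Finset.sum_range_succ]
        rw [hsum]
        have hv : ∀ j, 4 * (m + 1) ≤ j → u j ≤ u (4 * (m + 1) - 1) := fun j hj => hu (by omega)
        have h0 := hv (4 * (m + 1)) (by omega)
        have h1 := hv (4 * (m + 1) + 1) (by omega)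
        have h2 := hv (4 * (m + 1) + 1 + 1) (by omega)
        have h3 := hv (4 * (m + 1) + 1 + 1 + 1) (by omega)
        calc _ ≤ 4 * (∑ i ∈ range K0, u i + ∑ k ∈ Finset.Icc K0 m, u (4 * k - 1))
              + u (4 * (m + 1) - 1) + u (4 * (m + 1) - 1) + u (4 * (m + 1) - 1)
              + u (4 * (m + 1) - 1) := by gcongr
          _ = _ := by ring
      · have h0 : ∑ i ∈ range (4 * (m + 1 + 1)), u i ≤ ∑ i ∈ range (4 * K0), u i :=
          Finset.sum_le_sum_of_subset (by
            intro x hx
            simp only [mem_range] at hx ⊢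
            omega)
        refine h0.trans ((sum_range_four_mul_le u hu K0).trans ?_)
        gcongr
        exact le_self_add
  have h1 : ∑ i ∈ range r, u i ≤ ∑ i ∈ range (4 * (r / 4 + 1)), u i :=
    Finset.sum_le_sum_of_subset (by
      intro x hx
      simp only [mem_range] at hx ⊢
      omega)
  exact h1.trans (hgen _)

/-- comparing a set with an upper set -/
lemma sum_le_sum_upper (L T Z : Finset E) (h : E → ℝ≥0∞) (hZL : Z ⊆ L) (hc : Z.card ≤ T.card)
    (hup : ∀ x ∈ T, ∀ y ∈ L, y ∉ T → h y ≤ h x) : ∑ e ∈ Z, h e ≤ ∑ e ∈ T, h e := by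
  have h1 : ∑ e ∈ Z, h e = ∑ e ∈ Z ∩ T, h e + ∑ e ∈ Z \ T, h e := by
    have := Finset.sum_sdiff (s₁ := Z ∩ T) (s₂ := Z) (f := h) Finset.inter_subset_left
    rw [Finset.sdiff_inter_self_left] at this
    rw [add_comm, this]
  have h2 : ∑ e ∈ T, h e = ∑ e ∈ T ∩ Z, h e + ∑ e ∈ T \ Z, h e := by
    have := Finset.sum_sdiff (s₁ := T ∩ Z) (s₂ := T) (f := h) Finset.inter_subset_left
    rw [Finset.sdiff_inter_self_left] at this
    rw [add_comm, this]
  rw [h1, h2, Finset.inter_comm T Z]
  refine add_le_add le_rfl ?_
  by_cases hne : (Z \ T).Nonempty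
  · have hcd : (Z \ T).card ≤ (T \ Z).card := by
      have h3 := Finset.card_sdiff_add_card_inter Z T
      have h4 := Finset.card_sdiff_add_card_inter T Z
      rw [Finset.inter_comm] at h4
      omega
    have hne2 : (T \ Z).Nonempty := by
      rw [← Finset.card_pos]
      have := Finset.card_pos.mpr hne
      omega
    obtain ⟨x, hx, hxm⟩ := Finset.exists_min_image (T \ Z) h hne2
    calc ∑ e ∈ Z \ T, h e ≤ ∑ _e ∈ Z \ T, h x := by
          refine Finset.sum_le_sum fun e he => ?_
          rw [Finset.mem_sdiff] at he hx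
          exact hup x hx.1 e (hZL he.1) he.2
      _ = ((Z \ T).card : ℝ≥0∞) * h x := by simp [Finset.sum_const, nsmul_eq_mul]
      _ ≤ ((T \ Z).card : ℝ≥0∞) * h x := by gcongr
      _ = ∑ _e ∈ T \ Z, h x := by simp [Finset.sum_const, nsmul_eq_mul]
      _ ≤ ∑ e ∈ T \ Z, h e := Finset.sum_le_sum fun e he => hxm e he
  · rw [Finset.not_nonempty_iff_eq_empty] at hne
    rw [hne]
    simp

/-- The total of all rules, with harmonic weights. -/
noncomputable def totalRule (M : Matroid E) (K0 r : ℕ) (ks kv : E → κ) (v : E → ℝ≥0∞) : ℝ≥0∞ :=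
  worst M (topPass M K0 ks kv) v +
    ∑ k ∈ Finset.Icc K0 (r / 4), (k : ℝ≥0∞)⁻¹ * worst M (levelPass M k ks kv) v

theorem total_bound (M : Matroid E) (K : E → Bool → κ)
    (hinj : ∀ e f c d, K e c = K f d → e = f ∧ c = d) (hlt : ∀ e, K e false < K e true)
    (val : κ → ℝ≥0∞) (hval : Monotone val) {K0 g r : ℕ} (hK0 : 1 ≤ K0) (hg : 2 ≤ g)
    (hgirth : ∀ I : Finset E, I.card < g → (∀ e ∈ I, M.Indep ({e} : Set E)) → M.Indep (I : Set E))
    (hcase : K0 = 1 ∨ 4 * K0 ≤ g)
    (hr : ∀ I : Finset E, M.Indep (I : Set E) → I.card ≤ r)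
    {I : Finset E} (hI : M.Indep (I : Set E)) :
    (2 ^ Fintype.card E : ℝ≥0∞) * ∑ e ∈ I, val (K e true) ≤
      16 * ∑ b : E → Bool, totalRule M K0 r (keyS K b) (keyV K b) (fun e => val (keyV K b e)) := by
  obtain ⟨u, hanti, hzero, -, hpre⟩ := exists_sorted (fun e => K e true) val hval I
  set N : ℝ≥0∞ := (2 ^ Fintype.card E : ℝ≥0∞) with hN
  -- the sum over I is the sum over range r
  have hIr := hr I hI
  have hsumI : ∑ e ∈ I, val (K e true) = ∑ i ∈ range r, u i := by
    obtain ⟨Z, hZs, hZc, -, hZsum⟩ := hpre I.card le_rfl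
    have hZeq : Z = I := Finset.eq_of_subset_of_card_le hZs (by omega)
    subst hZeq
    rw [← hZsum]
    refine Finset.sum_subset (by
      intro x hx
      simp only [mem_range] at hx ⊢
      omega) ?_
    intro x _ hx
    exact hzero x (by simpa using hx)
  have hfour := sum_le_four u hanti r K0 hK0 (fun i hi => hzero i (by omega))
  -- top part
  have hIL : I ⊆ nonloops M := by
    intro e he
    simp only [nonloops, mem_filter, mem_univ, true_and]
    refine hI.subset ?_
    simpa using he
  have hainj : Function.Injective (fun e => K e true) := by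
    intro x y hxy
    exact (hinj _ _ _ _ hxy).1
  have htop : N * ∑ i ∈ range K0, u i ≤
      4 * ∑ b : E → Bool, worst M (topPass M K0 (keyS K b) (keyV K b))
        (fun e => val (keyV K b e)) := by
    obtain ⟨T, hTL, hTc, hTup⟩ := exists_upper (nonloops M) (fun e => K e true) hainj
      (min K0 (nonloops M).card) (min_le_right _ _)
    have h1 := top_bound M K hinj hlt val hval hK0 hg hgirth hcase hTL
      (by rw [hTc]; exact min_le_left _ _) hTup
    refine le_trans ?_ h1
    gcongr
    -- compare
    set j := min K0 I.card with hj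
    obtain ⟨Z, hZs, hZc, -, hZsum⟩ := hpre j (min_le_right _ _)
    have hIcard : I.card ≤ (nonloops M).card := Finset.card_le_card hIL
    have h2 : ∑ i ∈ range K0, u i = ∑ i ∈ range j, u i := by
      symm
      refine Finset.sum_subset (by
        intro x hx
        simp only [mem_range] at hx ⊢
        omega) ?_
      intro x hx hx2
      simp only [mem_range] at hx hx2
      exact hzero x (by omega)
    rw [h2, hZsum]
    refine sum_le_sum_upper (nonloops M) T Z (fun e => val (K e true)) (hZs.trans hIL)
      (by rw [hZc, hTc]; omega) ?_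
    intro x hx y hy hyT
    exact hval (hTup x hx y hy hyT).le
  -- level part
  have hlevel : ∀ k ∈ Finset.Icc K0 (r / 4), N * u (4 * k - 1) ≤
      4 * ∑ b : E → Bool, (k : ℝ≥0∞)⁻¹ * worst M (levelPass M k (keyS K b) (keyV K b))
        (fun e => val (keyV K b e)) := by
    intro k hk
    rw [Finset.mem_Icc] at hk
    have hk1 : 1 ≤ k := by omega
    by_cases hkI : 4 * k ≤ I.card
    · obtain ⟨Z, hZs, hZc, hZu, -⟩ := hpre (4 * k) hkI
      have hZi : M.Indep (Z : Set E) := hI.subset (by exact_mod_cast hZs)
      have hu : ∀ e ∈ Z, u (4 * k - 1) ≤ val (K e true) := by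
        intro e he
        exact hZu e he _ (by omega)
      have h1 := level_bound M K hinj hlt val hval hk1 hZi hZc hu
      have hk0 : (k : ℝ≥0∞) ≠ 0 := by
        simp
        omega
      have hktop : (k : ℝ≥0∞) ≠ ⊤ := by simp
      rw [← Finset.mul_sum]
      calc N * u (4 * k - 1) = (k : ℝ≥0∞)⁻¹ * (N * (k : ℝ≥0∞) * u (4 * k - 1)) := by
            calc N * u (4 * k - 1) = ((k : ℝ≥0∞)⁻¹ * (k : ℝ≥0∞)) * (N * u (4 * k - 1)) := by
                  rw [ENNReal.inv_mul_cancel hk0 hktop, one_mul]
              _ = _ := by ring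
        _ ≤ (k : ℝ≥0∞)⁻¹ * (4 * ∑ b : E → Bool, worst M (levelPass M k (keyS K b) (keyV K b))
              (fun e => val (keyV K b e))) := by
            gcongr
        _ = _ := by ring
    · rw [hzero _ (by omega)]
      simp
  -- combination
  rw [hsumI]
  calc N * ∑ i ∈ range r, u i
      ≤ N * (4 * (∑ i ∈ range K0, u i + ∑ k ∈ Finset.Icc K0 (r / 4), u (4 * k - 1))) := by
        gcongr
    _ = 4 * (N * ∑ i ∈ range K0, u i + ∑ k ∈ Finset.Icc K0 (r / 4), N * u (4 * k - 1)) := by
        rw [← Finset.mul_sum]
        ring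
    _ ≤ 4 * (4 * ∑ b : E → Bool, worst M (topPass M K0 (keyS K b) (keyV K b))
          (fun e => val (keyV K b e))
        + ∑ k ∈ Finset.Icc K0 (r / 4), 4 * ∑ b : E → Bool,
          (k : ℝ≥0∞)⁻¹ * worst M (levelPass M k (keyS K b) (keyV K b))
            (fun e => val (keyV K b e))) :=
        mul_le_mul' le_rfl (add_le_add htop (Finset.sum_le_sum hlevel))
    _ = _ := by
        unfold totalRule
        rw [Finset.sum_add_distrib, Finset.sum_comm (s := (univ : Finset (E → Bool)))
          (t := Finset.Icc K0 (r / 4)), ← Finset.mul_sum]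
        ring

end Vale.Agent.P331
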